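import Vale.Agent.P002.H2.D6
import Mathlib.Algebra.MvPolynomial.Funext

/-!
# Units congruent to one, Laurent polynomials at units, density of units in tori
-/

set_option linter.all false

namespace Vale.Agent.P002.H955

open NumberField Vale.Agent.P002.H2 MvPolynomial

section InO

variable {L : IntermediateField ℚ ℂ}

theorem InO.add {x y : ℂ} (hx : InO L x) (hy : InO L y) : InO L (x + y) := by
  obtain ⟨a, rfl⟩ := hx
  obtain ⟨b, rfl⟩ := hy
  exact ⟨a + b, rfl⟩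

theorem InO.neg {x : ℂ} (hx : InO L x) : InO L (-x) := by
  obtain ⟨a, rfl⟩ := hx
  exact ⟨-a, rfl⟩

theorem InO.sub {x y : ℂ} (hx : InO L x) (hy : InO L y) : InO L (x - y) := by
  obtain ⟨a, rfl⟩ := hx
  obtain ⟨b, rfl⟩ := hy
  exact ⟨a - b, rfl⟩

theorem InO.zero : InO L 0 := ⟨0, rfl⟩

theorem InO.sum {κ : Type*} (s : Finset κ) (f : κ → ℂ) (hf : ∀ i ∈ s, InO L (f i)) :
    InO L (∑ i ∈ s, f i) := by
  classical
  induction s using Finset.induction_on with
  | empty => rw [Finset.sum_empty]; exact InO.zero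
  | insert i s hi ih =>
    rw [Finset.sum_insert hi]
    exact InO.add (hf i (Finset.mem_insert_self i s))
      (ih fun j hj => hf j (Finset.mem_insert_of_mem hj))

theorem natCast_val (n : ℕ) : (((n : 𝓞 L).1.1 : ℂ)) = (n : ℂ) :=
  map_natCast ((L.val.toRingHom).comp (algebraMap (𝓞 L) L)) n

theorem InO.natCast (n : ℕ) : InO L (n : ℂ) := ⟨n, (natCast_val n).symm⟩

theorem InO.pow {x : ℂ} (hx : InO L x) (n : ℕ) : InO L (x ^ n) := by
  obtain ⟨a, rfl⟩ := hx
  exact ⟨a ^ n, rfl⟩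

/-- `x ≡ 1` modulo `M 𝓞 L` -/
def Cong (L : IntermediateField ℚ ℂ) (M : ℕ) (x : ℂ) : Prop := ∃ z, InO L z ∧ x - 1 = M * z

theorem Cong.inO {M : ℕ} {x : ℂ} (h : Cong L M x) : InO L x := by
  obtain ⟨z, hz, h1⟩ := h
  have : x = M * z + 1 := by linear_combination h1
  rw [this]
  exact InO.add (InO.mul (InO.natCast M) hz) (InO.one L)

theorem Cong.one (M : ℕ) : Cong L M 1 := ⟨0, InO.zero, by simp⟩

theorem Cong.mul {M : ℕ} {x y : ℂ} (hx : Cong L M x) (hy : Cong L M y) : Cong L M (x * y) := by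
  have hx' := hx.inO
  obtain ⟨z, hz, h1⟩ := hx
  obtain ⟨w, hw, h2⟩ := hy
  exact ⟨x * w + z, InO.add (InO.mul hx' hw) hz, by linear_combination x * h2 + h1⟩

theorem Cong.pow {M : ℕ} {x : ℂ} (hx : Cong L M x) (n : ℕ) : Cong L M (x ^ n) := by
  induction n with
  | zero => rw [pow_zero]; exact Cong.one M
  | succ n ih => rw [pow_succ]; exact ih.mul hx

theorem Cong.prod {M : ℕ} {κ : Type*} (s : Finset κ) (f : κ → ℂ)
    (hf : ∀ i ∈ s, Cong L M (f i)) : Cong L M (∏ i ∈ s, f i) := by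
  classical
  induction s using Finset.induction_on with
  | empty => rw [Finset.prod_empty]; exact Cong.one M
  | insert i s hi ih =>
    rw [Finset.prod_insert hi]
    exact (hf i (Finset.mem_insert_self i s)).mul
      (ih fun j hj => hf j (Finset.mem_insert_of_mem hj))

theorem Cong.inv {M : ℕ} {x : ℂˣ} (hx : Cong L M (x : ℂ)) (hx' : InO L ((x⁻¹ : ℂˣ) : ℂ)) :
    Cong L M ((x⁻¹ : ℂˣ) : ℂ) := by
  obtain ⟨z, hz, h1⟩ := hx
  refine ⟨-(((x⁻¹ : ℂˣ) : ℂ) * z), InO.neg (InO.mul hx' hz), ?_⟩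
  have h2 : (x : ℂ) * ((x⁻¹ : ℂˣ) : ℂ) = 1 := Units.mul_inv x
  linear_combination (-((x⁻¹ : ℂˣ) : ℂ)) * h1 + h2

/-- a positive power of a unit is congruent to one -/
theorem exists_pow_cong [FiniteDimensional ℚ L] {u : ℂˣ} (hu : InO L (u : ℂ))
    (hu' : InO L ((u⁻¹ : ℂˣ) : ℂ)) (M : ℕ) (hM : 0 < M) :
    ∃ N : ℕ, 0 < N ∧ Cong L M ((u ^ N : ℂˣ) : ℂ) := by
  haveI : NumberField L := { to_charZero := inferInstance, to_finiteDimensional := inferInstance }
  obtain ⟨a, ha⟩ := hu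
  obtain ⟨b, hb⟩ := hu'
  have hab : a * b = 1 := by
    have h1 : ((a * b : 𝓞 L).1.1 : ℂ) = ((1 : 𝓞 L).1.1 : ℂ) := by
      have h2 : (u : ℂ) * ((u⁻¹ : ℂˣ) : ℂ) = 1 := Units.mul_inv u
      rw [ha, hb] at h2
      exact h2
    exact RingOfIntegers.ext (Subtype.ext h1)
  let I : Ideal (𝓞 L) := Ideal.span {(M : 𝓞 L)}
  have hI : I ≠ ⊥ := by
    intro h
    rw [Ideal.span_singleton_eq_bot] at h
    exact hM.ne' (by exact_mod_cast h)
  haveI : Finite (𝓞 L ⧸ I) := Ideal.finiteQuotientOfFreeOfNeBot I hI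
  let v : (𝓞 L ⧸ I)ˣ := ⟨Ideal.Quotient.mk I a, Ideal.Quotient.mk I b,
    by rw [← map_mul, hab, map_one], by rw [← map_mul, mul_comm, hab, map_one]⟩
  haveI : Finite (𝓞 L ⧸ I)ˣ := inferInstance
  obtain ⟨N, hN, hvN⟩ := isOfFinOrder_iff_pow_eq_one.1 (isOfFinOrder_of_finite v)
  refine ⟨N, hN, ?_⟩
  have h1 : Ideal.Quotient.mk I (a ^ N) = Ideal.Quotient.mk I 1 := by
    have := congrArg Units.val hvN
    rw [Units.val_pow_eq_pow_val, Units.val_one] at this
    rw [map_pow, map_one]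
    exact this
  rw [Ideal.Quotient.eq, Ideal.mem_span_singleton] at h1
  obtain ⟨c, hc⟩ := h1
  refine ⟨c.1.1, ⟨c, rfl⟩, ?_⟩
  have h2 : ((a ^ N - 1 : 𝓞 L).1.1 : ℂ) = (((M : 𝓞 L) * c : 𝓞 L).1.1 : ℂ) := by rw [hc]
  rw [Units.val_pow_eq_pow_val, ha]
  have h3 : (((M : 𝓞 L) * c : 𝓞 L).1.1 : ℂ) = (M : ℂ) * c.1.1 := by
    rw [← natCast_val (L := L) M]; rfl
  rw [h3] at h2
  rw [← h2]
  rfl

end InO

/-- A Laurent polynomial at a point of the torus -/
noncomputable def lev {n : ℕ} (p : MvPolynomial (Fin n ⊕ Fin n) ℂ) (t : Fin n → ℂˣ) : ℂ :=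
  eval (Sum.elim (fun i => (t i : ℂ)) (fun i => ((t i)⁻¹ : ℂˣ))) p

/-- the denominators of finitely many algebraic numbers -/
theorem exists_denom {L : IntermediateField ℚ ℂ} [FiniteDimensional ℚ L] {κ : Type*}
    (s : Finset κ) (c : κ → ℂ) (hc : ∀ i ∈ s, c i ∈ L) :
    ∃ M : ℕ, 0 < M ∧ ∀ i ∈ s, InO L ((M : ℂ) * c i) := by
  classical
  induction s using Finset.induction_on with
  | empty => exact ⟨1, one_pos, fun i hi => absurd hi (Finset.notMem_empty i)⟩
  | insert i s hi ih =>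
    obtain ⟨M, hM, h1⟩ := ih fun j hj => hc j (Finset.mem_insert_of_mem hj)
    have hci := hc i (Finset.mem_insert_self i s)
    have halg : IsAlgebraic ℤ (c i) := by
      have h2 : IsAlgebraic ℚ (⟨c i, hci⟩ : L) := Algebra.IsAlgebraic.isAlgebraic _
      have h3 : IsAlgebraic ℚ (c i) := h2.algebraMap (A := ℂ)
      exact (IsFractionRing.isAlgebraic_iff ℤ ℚ ℂ).2 h3
    obtain ⟨y, hy0, hy⟩ := halg.exists_integral_multiple
    refine ⟨M * y.natAbs, Nat.mul_pos hM (Int.natAbs_pos.2 hy0), fun j hj => ?_⟩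
    rcases Finset.mem_insert.1 hj with rfl | hj
    · have h4 : IsIntegral ℤ (((y.natAbs : ℕ) : ℂ) * c j) := by
        rw [zsmul_eq_mul] at hy
        rcases Int.natAbs_eq y with h5 | h5
        · have : ((y.natAbs : ℕ) : ℂ) = (y : ℂ) := by
            conv_rhs => rw [h5]
            simp
          rw [this]; exact hy
        · have : ((y.natAbs : ℕ) : ℂ) = -(y : ℂ) := by
            conv_rhs => rw [h5]
            simp
          rw [this, neg_mul]; exact hy.neg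
      have h6 : InO L (((y.natAbs : ℕ) : ℂ) * c j) :=
        InO.of_mem (mul_mem (natCast_mem L _) hci) h4
      have h7 : ((M * y.natAbs : ℕ) : ℂ) * c j = (M : ℂ) * (((y.natAbs : ℕ) : ℂ) * c j) := by
        push_cast; ring
      rw [h7]
      exact InO.mul (InO.natCast M) h6
    · have h7 : ((M * y.natAbs : ℕ) : ℂ) * c j = (y.natAbs : ℂ) * ((M : ℂ) * c j) := by
        push_cast; ring
      rw [h7]
      exact InO.mul (InO.natCast _) (h1 j hj)

/-- A Laurent polynomial with coefficients in `L`: if it is integral at one point, it is integral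
at the multiples of the point by units congruent to one -/
theorem lev_integral {L : IntermediateField ℚ ℂ} [FiniteDimensional ℚ L] {n : ℕ}
    (p : MvPolynomial (Fin n ⊕ Fin n) ℂ) (hp : ∀ m, p.coeff m ∈ L) (t : Fin n → ℂˣ)
    (ht : ∀ i, (t i : ℂ) ∈ L) :
    ∃ M : ℕ, 0 < M ∧ ∀ M' : ℕ, M ∣ M' → ∀ u : Fin n → ℂˣ, (∀ i, Cong L M' (u i : ℂ)) →
      (∀ i, InO L (((u i)⁻¹ : ℂˣ) : ℂ)) → InO L (lev p (fun i => u i * t i) - lev p t) := by
  classical
  let c : (Fin n ⊕ Fin n →₀ ℕ) → ℂ := fun m => p.coeff m *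
    ∏ i : Fin n ⊕ Fin n, (Sum.elim (fun i => (t i : ℂ)) (fun i => ((t i)⁻¹ : ℂˣ)) i) ^ m i
  have hcL : ∀ m ∈ p.support, c m ∈ L := by
    intro m _
    refine mul_mem (hp m) (prod_mem fun i _ => pow_mem ?_ _)
    cases i with
    | inl i => exact ht i
    | inr i =>
      simp only [Sum.elim_inr, Units.val_inv_eq_inv_val]
      exact inv_mem (ht i)
  obtain ⟨M, hM, hMc⟩ := exists_denom p.support c hcL
  refine ⟨M, hM, fun M' hMM' u hu hu' => ?_⟩
  have hu'' : ∀ i, Cong L M' (((u i)⁻¹ : ℂˣ) : ℂ) := fun i => (hu i).inv (hu' i)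
  have key : lev p (fun i => u i * t i) - lev p t = ∑ m ∈ p.support, c m *
      (∏ i : Fin n ⊕ Fin n, (Sum.elim (fun i => (u i : ℂ)) (fun i => ((u i)⁻¹ : ℂˣ)) i) ^ m i
        - 1) := by
    unfold lev
    rw [eval_eq', eval_eq', ← Finset.sum_sub_distrib]
    refine Finset.sum_congr rfl fun m _ => ?_
    have h1 : ∏ i : Fin n ⊕ Fin n, (Sum.elim (fun i => ((u i * t i : ℂˣ) : ℂ))
        (fun i => (((u i * t i)⁻¹ : ℂˣ) : ℂ)) i) ^ m i =
        (∏ i : Fin n ⊕ Fin n, (Sum.elim (fun i => (u i : ℂ))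
          (fun i => (((u i)⁻¹ : ℂˣ) : ℂ)) i) ^ m i) *
        ∏ i : Fin n ⊕ Fin n, (Sum.elim (fun i => (t i : ℂ))
          (fun i => (((t i)⁻¹ : ℂˣ) : ℂ)) i) ^ m i := by
      rw [← Finset.prod_mul_distrib]
      refine Finset.prod_congr rfl fun i _ => ?_
      cases i with
      | inl i => simp only [Sum.elim_inl, Units.val_mul, mul_pow]
      | inr i => simp only [Sum.elim_inr, mul_inv, Units.val_mul, mul_pow]
    rw [h1]
    ring
  rw [key]
  refine InO.sum _ _ fun m hm => ?_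
  have h2 : Cong L M' (∏ i : Fin n ⊕ Fin n, (Sum.elim (fun i => (u i : ℂ))
      (fun i => (((u i)⁻¹ : ℂˣ) : ℂ)) i) ^ m i) := by
    refine Cong.prod _ _ fun i _ => Cong.pow ?_ _
    cases i with
    | inl i => exact hu i
    | inr i => exact hu'' i
  obtain ⟨z, hz, h3⟩ := h2
  obtain ⟨k, rfl⟩ := hMM'
  rw [h3]
  have h4 : c m * (((M * k : ℕ) : ℂ) * z) = ((M : ℂ) * c m) * ((k : ℂ) * z) := by
    push_cast; ring
  rw [h4]
  exact InO.mul (hMc m hm) (InO.mul (InO.natCast k) hz)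

/-- An infinite set of units is dense in the torus -/
theorem lev_dense {n : ℕ} (p : MvPolynomial (Fin n ⊕ Fin n) ℂ) (U : Fin n → Set ℂˣ)
    (hU : ∀ i, (U i).Infinite) (h : ∀ u : Fin n → ℂˣ, (∀ i, u i ∈ U i) → lev p u = 0)
    (t : Fin n → ℂˣ) : lev p t = 0 := by
  classical
  obtain ⟨D, hD⟩ : ∃ D : ℕ, ∀ m ∈ p.support, ∀ i, m i ≤ D := by
    refine ⟨p.totalDegree, fun m hm i => ?_⟩
    refine le_trans ?_ (le_totalDegree hm)
    by_cases hi : i ∈ m.support
    · exact Finset.single_le_sum (f := fun i => m i) (fun _ _ => Nat.zero_le _) hi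
    · rw [Finsupp.notMem_support_iff.1 hi]; exact Nat.zero_le _
  let q : MvPolynomial (Fin n) ℂ := ∑ m ∈ p.support, C (p.coeff m) *
    ∏ i : Fin n, (X i ^ m (Sum.inl i) * X i ^ (D - m (Sum.inr i)))
  have hq : ∀ t : Fin n → ℂˣ, eval (fun i => (t i : ℂ)) q =
      (∏ i, (t i : ℂ) ^ D) * lev p t := by
    intro t
    unfold lev
    simp only [q, map_sum, map_mul, map_prod, map_pow, eval_C, eval_X]
    rw [eval_eq', Finset.mul_sum]
    refine Finset.sum_congr rfl fun m hm => ?_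
    rw [Fintype.prod_sum_type]
    simp only [Sum.elim_inl, Sum.elim_inr]
    have h1 : ∀ i : Fin n, (t i : ℂ) ^ (D - m (Sum.inr i)) =
        (t i : ℂ) ^ D * (((t i)⁻¹ : ℂˣ) : ℂ) ^ m (Sum.inr i) := by
      intro i
      have h2 : (t i : ℂ) ^ D = (t i : ℂ) ^ (D - m (Sum.inr i)) * (t i : ℂ) ^ m (Sum.inr i) := by
        rw [← pow_add, Nat.sub_add_cancel (hD m hm _)]
      rw [h2, mul_assoc, ← mul_pow, Units.mul_inv, one_pow, mul_one]
    rw [Finset.prod_mul_distrib]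
    simp only [h1]
    rw [Finset.prod_mul_distrib]
    ring
  have hq0 : q = 0 := by
    refine funext_set (fun i => (fun x : ℂˣ => (x : ℂ)) '' (U i)) (fun i =>
      (hU i).image (fun x _ y _ hxy => Units.ext hxy)) fun x hx => ?_
    have hx' : ∀ i, ∃ y ∈ U i, ((y : ℂˣ) : ℂ) = x i := fun i => hx i (Set.mem_univ i)
    choose y hy hyx using hx'
    have : x = fun i => ((y i : ℂˣ) : ℂ) := funext fun i => (hyx i).symm
    rw [this, hq, h y hy, mul_zero, map_zero]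
  have h1 := hq t
  rw [hq0, map_zero] at h1
  have h2 : (∏ i, (t i : ℂ) ^ D) ≠ 0 := Finset.prod_ne_zero_iff.2 fun i _ => pow_ne_zero _ (t i).ne_zero
  rcases mul_eq_zero.1 h1.symm with h3 | h3
  · exact absurd h3 h2
  · exact h3

/-- infinitely many units congruent to one -/
theorem infinite_cong {L : IntermediateField ℚ ℂ} [FiniteDimensional ℚ L] {u : ℂˣ}
    (hu : InO L (u : ℂ)) (hu' : InO L ((u⁻¹ : ℂˣ) : ℂ)) (hinf : ∀ n : ℕ, 0 < n → u ^ n ≠ 1)
    (M : ℕ) (hM : 0 < M) :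
    {x : ℂˣ | Cong L M (x : ℂ) ∧ InO L ((x⁻¹ : ℂˣ) : ℂ)}.Infinite := by
  obtain ⟨N, hN, h1⟩ := exists_pow_cong hu hu' M hM
  have hinj : Function.Injective (fun k : ℕ => (u ^ N) ^ k) := by
    intro a b hab
    simp only [← pow_mul] at hab
    by_contra hne
    rcases lt_or_gt_of_ne hne with h2 | h2
    · have h3 : u ^ (N * b - N * a) = 1 := by
        have h4 : N * a ≤ N * b := Nat.mul_le_mul_left _ h2.le
        have h5 : u ^ (N * b - N * a) * u ^ (N * a) = u ^ (N * b) := by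
          rw [← pow_add, Nat.sub_add_cancel h4]
        rw [← hab] at h5
        exact mul_eq_right.1 h5
      exact hinf _ (Nat.sub_pos_of_lt ((Nat.mul_lt_mul_left hN).2 h2)) h3
    · have h3 : u ^ (N * a - N * b) = 1 := by
        have h4 : N * b ≤ N * a := Nat.mul_le_mul_left _ h2.le
        have h5 : u ^ (N * a - N * b) * u ^ (N * b) = u ^ (N * a) := by
          rw [← pow_add, Nat.sub_add_cancel h4]
        rw [hab] at h5
        exact mul_eq_right.1 h5
      exact hinf _ (Nat.sub_pos_of_lt ((Nat.mul_lt_mul_left hN).2 h2)) h3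
  refine (Set.infinite_range_of_injective hinj).mono ?_
  rintro x ⟨k, rfl⟩
  refine ⟨?_, ?_⟩
  · simp only
    rw [Units.val_pow_eq_pow_val]
    exact h1.pow k
  · simp only
    rw [← inv_pow, ← inv_pow, Units.val_pow_eq_pow_val, Units.val_pow_eq_pow_val]
    exact InO.pow (InO.pow hu' N) k

end Vale.Agent.P002.H955
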