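import Vale.Agent.P002.H2.YG

/-!
# P002: the field of definition of a point of `M_r`

`integralPoint_of_trace_mem`: a semisimple representation whose traces are integral and in a number
field `L` is an `𝓞 L`-integral point of `M_r`.
-/

namespace Vale.Agent.P002.R2.H955

open Matrix NumberField Vale.Agent.P002R.Orb Vale.Agent.P002.H326J Vale.Agent.P002.H2
  Vale.Agent.P002.H252

variable {ι : Type} {r : ℕ}

theorem lift_map_hom {A B : Type} [CommRing A] [CommRing B] (φ : A →+* B)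
    (Y : ι → SpecialLinearGroup (Fin r) A) (w : FreeGroup ι) :
    FreeGroup.lift (fun p => SpecialLinearGroup.map φ (Y p)) w =
      SpecialLinearGroup.map φ (FreeGroup.lift Y w) := by
  have h1 : FreeGroup.lift (fun p => SpecialLinearGroup.map φ (Y p)) =
      (SpecialLinearGroup.map φ).comp (FreeGroup.lift Y) := by
    apply FreeGroup.ext_hom
    intro p
    rw [FreeGroup.lift_apply_of, MonoidHom.comp_apply, FreeGroup.lift_apply_of]
  rw [h1]
  rfl

theorem value_map_hom {A B : Type} [CommRing A] [CommRing B] (φ : A →+* B)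
    (Y : ι → SpecialLinearGroup (Fin r) A) (F : MvPolynomial (ι × Fin r × Fin r) ℤ) :
    value F (fun p => SpecialLinearGroup.map φ (Y p)) = φ (value F Y) := by
  unfold value
  rw [MvPolynomial.hom_eval₂]
  congr 1
  exact RingHom.ext_int _ _

theorem trace_map_hom {A B : Type} [CommRing A] [CommRing B] (φ : A →+* B)
    (M : SpecialLinearGroup (Fin r) A) : (SpecialLinearGroup.map φ M).1.trace = φ M.1.trace := by
  rw [Matrix.trace, Matrix.trace, map_sum]
  rfl

/-- semisimplicity does not depend on the embedding of the field -/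
theorem ss_transfer {K : Type} [Field K] (φ ψ : K →+* ℂ) (Y : ι → SpecialLinearGroup (Fin r) K)
    (h : ∀ W, IsInv (fun p => SpecialLinearGroup.map φ (Y p)) W →
      ∃ W', IsInv (fun p => SpecialLinearGroup.map φ (Y p)) W' ∧ IsCompl W W') :
    ∀ W, IsInv (fun p => SpecialLinearGroup.map ψ (Y p)) W →
      ∃ W', IsInv (fun p => SpecialLinearGroup.map ψ (Y p)) W' ∧ IsCompl W W' := by
  rw [ss_iff, crit] at h ⊢
  obtain ⟨d, hd, h1, u, hu⟩ := h
  have key : ∀ (φ : K →+* ℂ) (w : FreeGroup ι), matHom (fun p => SpecialLinearGroup.map φ (Y p)) w =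
      φ.mapMatrix (FreeGroup.lift Y w).1 := by
    intro φ w
    rw [matHom_apply, lift_map_hom]
    rfl
  refine ⟨d, hd, fun v hv => h1 v ?_, u, fun h0 => hu ?_⟩
  · rw [indep_iff_minor'] at hv ⊢
    obtain ⟨c, hc⟩ := hv
    refine ⟨c, fun h0 => hc ?_⟩
    have e1 : ∀ φ : K →+* ℂ, (Matrix.of fun a b =>
        matHom (fun p => SpecialLinearGroup.map φ (Y p)) (v a) (c b).1 (c b).2) =
        φ.mapMatrix (Matrix.of fun a b => (FreeGroup.lift Y (v a)).1 (c b).1 (c b).2) := by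
      intro φ
      ext a b
      rw [Matrix.of_apply, key]
      rfl
    rw [e1, ← RingHom.map_det, map_eq_zero] at h0 ⊢
    exact h0
  · have e1 : ∀ φ : K →+* ℂ, gramW (matHom fun p => SpecialLinearGroup.map φ (Y p)) u =
        φ.mapMatrix (Matrix.of fun i j => (FreeGroup.lift Y (u i * u j)).1.trace) := by
      intro φ
      ext i j
      have e2 : gramW (matHom fun p => SpecialLinearGroup.map φ (Y p)) u i j =
          (matHom (fun p => SpecialLinearGroup.map φ (Y p)) (u i * u j)).trace := rfl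
      rw [e2, matHom_apply, lift_map_hom, trace_map_hom]
      rfl
    rw [e1, ← RingHom.map_det, map_eq_zero] at h0 ⊢
    exact h0

/-- two semisimple representations with the same traces are conjugate -/
theorem conj_of_traces {X Y : ι → SpecialLinearGroup (Fin r) ℂ}
    (hX : ∀ W, IsInv X W → ∃ W', IsInv X W' ∧ IsCompl W W')
    (hY : ∀ W, IsInv Y W → ∃ W', IsInv Y W' ∧ IsCompl W W')
    (h : ∀ x, (FreeGroup.lift X x).1.trace = (FreeGroup.lift Y x).1.trace) :
    ∃ g : SpecialLinearGroup (Fin r) ℂ, Y = fun p => g * X p * g⁻¹ := by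
  have hss' : ∀ X : ι → SpecialLinearGroup (Fin r) ℂ,
      (∀ W, IsInv X W → ∃ W', IsInv X W' ∧ IsCompl W W') →
      ∀ W : Submodule ℂ (Fin r → ℂ), (∀ z ∈ (⊤ : Subgroup (FreeGroup ι)), ∀ v ∈ W,
        (FreeGroup.lift X z).1.mulVec v ∈ W) → ∃ W' : Submodule ℂ (Fin r → ℂ),
          (∀ z ∈ (⊤ : Subgroup (FreeGroup ι)), ∀ v ∈ W', (FreeGroup.lift X z).1.mulVec v ∈ W') ∧
            IsCompl W W' := by
    intro X hX W hW
    obtain ⟨W', h1, h2⟩ := hX W ((isInv_iff X W).2 fun z v hv => hW z (Subgroup.mem_top z) v hv)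
    exact ⟨W', fun z _ v hv => (isInv_iff X W').1 h1 z v hv, h2⟩
  obtain ⟨g, hg⟩ := H377.conj_of_trace (⊤ : Subgroup (FreeGroup ι)) (FreeGroup.lift X)
    (FreeGroup.lift Y) (hss' X hX) (hss' Y hY) (fun x _ => h x)
  refine ⟨g, funext fun p => ?_⟩
  have h1 := hg (FreeGroup.of p) (Subgroup.mem_top _)
  rwa [FreeGroup.lift_apply_of, FreeGroup.lift_apply_of] at h1

/-- a conjugate of a semisimple representation is semisimple -/
theorem ss_conj {X : ι → SpecialLinearGroup (Fin r) ℂ}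
    (hX : ∀ W, IsInv X W → ∃ W', IsInv X W' ∧ IsCompl W W') (g : SpecialLinearGroup (Fin r) ℂ) :
    ∀ W, IsInv (fun p => g * X p * g⁻¹) W →
      ∃ W', IsInv (fun p => g * X p * g⁻¹) W' ∧ IsCompl W W' := by
  have hgg : g.1 * (g⁻¹).1 = 1 := congrArg Subtype.val (mul_inv_cancel g)
  have hgg' : (g⁻¹).1 * g.1 = 1 := congrArg Subtype.val (inv_mul_cancel g)
  obtain ⟨e, he⟩ : ∃ e : (Fin r → ℂ) ≃ₗ[ℂ] (Fin r → ℂ), ∀ v, e v = g.1 *ᵥ v :=
    ⟨LinearEquiv.ofLinearMap (Matrix.toLin' g.1) (Matrix.toLin' (g⁻¹).1)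
      (by rw [← Matrix.toLin'_mul, hgg, Matrix.toLin'_one])
      (by rw [← Matrix.toLin'_mul, hgg', Matrix.toLin'_one]), fun v => rfl⟩
  intro W hW
  obtain ⟨W', h1, h2⟩ := hX (W.comap e.toLinearMap) (by
    intro p v hv
    have h3 := hW p (e v) hv
    change e ((X p).1 *ᵥ v) ∈ W
    rw [he] at h3 ⊢
    have h4 : (g * X p * g⁻¹).1 *ᵥ (g.1 *ᵥ v) = g.1 *ᵥ ((X p).1 *ᵥ v) := by
      change (g.1 * (X p).1 * (g⁻¹).1) *ᵥ (g.1 *ᵥ v) = _
      rw [Matrix.mulVec_mulVec, Matrix.mulVec_mulVec, Matrix.mul_assoc, hgg', Matrix.mul_one]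
    rwa [h4] at h3)
  refine ⟨W'.map e.toLinearMap, ?_, ?_⟩
  · rintro p _ ⟨v, hv, rfl⟩
    refine ⟨(X p).1 *ᵥ v, h1 p v hv, ?_⟩
    change e ((X p).1 *ᵥ v) = (g * X p * g⁻¹).1 *ᵥ e v
    rw [he, he]
    change _ = (g.1 * (X p).1 * (g⁻¹).1) *ᵥ (g.1 *ᵥ v)
    rw [Matrix.mulVec_mulVec, Matrix.mulVec_mulVec, Matrix.mul_assoc, hgg', Matrix.mul_one]
  · have h3 : W = (W.comap e.toLinearMap).map e.toLinearMap := by
      rw [Submodule.map_comap_eq_of_surjective e.surjective]
    rw [h3]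
    exact (Submodule.orderIsoMapComap e).isCompl_iff.1 h2

/-- **(G)** -/
theorem integralPoint_of_trace_mem [Finite ι] (R : Set (FreeGroup ι))
    (L : IntermediateField ℚ ℂ) (X : ι → SpecialLinearGroup (Fin r) ℂ) (hX : X ∈ YNone R r)
    (ht : ∀ x, IsIntegral ℤ (FreeGroup.lift X x).1.trace ∧ (FreeGroup.lift X x).1.trace ∈ L) :
    IsIntegralPoint R L X := by
  obtain ⟨L₁, X₁, hL₁, hX₁, g, hg⟩ := integral_form R X hX fun x => (ht x).1
  have hg' : X₁ = fun p => g * X p * g⁻¹ := funext hg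
  have hent : ∀ p i j, (X₁ p).1 i j ∈ algebraicClosure L ℂ := by
    intro p i j
    obtain ⟨a, ha⟩ := hX₁ p i j
    rw [ha, mem_algebraicClosure_iff]
    have h1 : IsIntegral ℤ (a.1.1 : ℂ) := a.2.map (L₁.val.restrictScalars ℤ)
    exact (h1.tower_top (A := L)).isAlgebraic
  obtain ⟨K, hK⟩ : ∃ K : IntermediateField L ℂ, K = algebraicClosure L ℂ := ⟨_, rfl⟩
  rw [← hK] at hent
  have hY : ∀ p, ∃ Y : SpecialLinearGroup (Fin r) K,
      SpecialLinearGroup.map (algebraMap K ℂ) Y = X₁ p := by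
    intro p
    refine ⟨⟨Matrix.of fun i j => (⟨(X₁ p).1 i j, hent p i j⟩ : K), ?_⟩, ?_⟩
    · apply (algebraMap K ℂ).injective
      rw [RingHom.map_det, map_one]
      exact (X₁ p).2
    · ext i j
      rfl
  choose Y hY using hY
  have hYX : X₁ = fun p => SpecialLinearGroup.map (algebraMap K ℂ) (Y p) :=
    funext fun p => (hY p).symm
  have hss₁ : ∀ W, IsInv X₁ W → ∃ W', IsInv X₁ W' ∧ IsCompl W W' := by
    rw [hg']
    exact ss_conj hX.2 g
  have htr : ∀ x, (FreeGroup.lift X₁ x).1.trace = (FreeGroup.lift X x).1.trace := by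
    intro x
    rw [hg', lift_conj]
    have h3 : (g⁻¹).1 * g.1 = 1 := congrArg Subtype.val (inv_mul_cancel g)
    change (g.1 * (FreeGroup.lift X x).1 * (g⁻¹).1).trace = _
    rw [Matrix.trace_mul_comm, ← Matrix.mul_assoc, h3, Matrix.one_mul]
  intro F hF
  have hval : value F X₁ = value F X := by
    rw [hg']
    exact hF ℂ X g hX.1
  have hrep₁ : IsRep R X₁ := by
    intro w hw
    rw [hg', lift_conj, hX.1 w hw, mul_one, mul_inv_cancel]
  have hvK : value F X₁ = algebraMap K ℂ (value F Y) := by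
    rw [hYX, value_map_hom]
  have hgal : IsGalois L K := by
    rw [hK]
    exact IsAlgClosure.isGalois L (algebraicClosure L ℂ)
  have hbot : value F Y ∈ (⊥ : IntermediateField L K) := by
    rw [InfiniteGalois.mem_bot_iff_fixed]
    intro σ
    obtain ⟨ψ, hψ⟩ : ∃ ψ : K →+* ℂ, ∀ k, ψ k = algebraMap K ℂ (σ k) :=
      ⟨(algebraMap K ℂ).comp (σ : K →+* K), fun k => rfl⟩
    have hss₂ := ss_transfer (algebraMap K ℂ) ψ Y (by rw [← hYX]; exact hss₁)
    obtain ⟨h, hh⟩ := conj_of_traces hss₁ hss₂ (fun x => by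
      rw [lift_map_hom, trace_map_hom, hψ]
      have h1 : (FreeGroup.lift X₁ x).1.trace = algebraMap K ℂ (FreeGroup.lift Y x).1.trace := by
        rw [hYX, lift_map_hom, trace_map_hom]
      have h2 : (FreeGroup.lift Y x).1.trace =
          algebraMap L K ⟨(FreeGroup.lift X x).1.trace, (ht x).2⟩ := by
        apply (algebraMap K ℂ).injective
        rw [← h1, htr]
        rfl
      rw [h1, h2, AlgEquiv.commutes])
    apply (algebraMap K ℂ).injective
    rw [← hψ, ← value_map_hom ψ Y F, hh, hF ℂ X₁ h hrep₁, hvK]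
  obtain ⟨a, ha⟩ := IntermediateField.mem_bot.1 hbot
  have hint : IsIntegral ℤ (value F X) := by
    obtain ⟨b, hb⟩ := hX₁.isIntegralPoint (R := R) F hF
    rw [← hval, hb]
    exact b.2.map (L₁.val.restrictScalars ℤ)
  have hav : (a : ℂ) = value F X := by
    rw [← hval, hvK, ← ha]
    rfl
  have ha' : IsIntegral ℤ a := by
    rw [← hav] at hint
    exact (isIntegral_algebraMap_iff (algebraMap L ℂ).injective).1 hint
  exact ⟨⟨a, ha'⟩, hav.symm⟩

end Vale.Agent.P002.R2.H955
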