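import Vale.Agent.P002.R2.H955.LocE
import Vale.Agent.P002.H2.YG

/-!
# Local integral forms (helper955 for P002)

A semisimple representation whose traces are integral at a maximal ideal `P` of the ring of all
algebraic integers is conjugate to a representation with entries integral at `P`.
-/

namespace Vale.Agent.P002.R2.H955

open Matrix Module Vale.Agent.P002R.Orb Vale.Agent.P002.H326J Vale.Agent.P002.H252
  Vale.Agent.P002.H2 Vale.Agent.P002.R2.H426 Vale.Agent.P002.R2.H524

variable {ι : Type} {r : ℕ}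

/-- the entries of a word are polynomials in the entries -/
theorem word_poly (w : FreeGroup ι) :
    ∃ W : Fin r → Fin r → MvPolynomial (ι × Fin r × Fin r) Kb,
      ∀ (X : ι → SpecialLinearGroup (Fin r) ℂ) i j,
        (FreeGroup.lift X w).1 i j = MvPolynomial.aeval (H252.coords X) (W i j) := by
  induction w using FreeGroup.induction_on with
  | C1 =>
    refine ⟨fun i j => MvPolynomial.C ((1 : Matrix (Fin r) (Fin r) Kb) i j), fun X i j => ?_⟩
    rw [map_one, MvPolynomial.aeval_C]
    change (1 : Matrix (Fin r) (Fin r) ℂ) i j = _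
    rw [Matrix.one_apply, Matrix.one_apply]
    split_ifs
    · rw [map_one]
    · rw [map_zero]
  | of p =>
    refine ⟨fun i j => MvPolynomial.X (p, i, j), fun X i j => ?_⟩
    rw [FreeGroup.lift_apply_of, MvPolynomial.aeval_X]
    rfl
  | inv_of p hp =>
    obtain ⟨W, hW⟩ := hp
    refine ⟨fun i j => (Matrix.of W).adjugate i j, fun X i j => ?_⟩
    have h1 : (Matrix.of W).map (MvPolynomial.aeval (H252.coords X)) =
        (FreeGroup.lift X (FreeGroup.of p)).1 := by
      ext i j
      rw [hW]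
      rfl
    have h2 := aeval_adj (H252.coords X) (Matrix.of W)
    rw [h1] at h2
    have h3 : (FreeGroup.lift X (FreeGroup.of p)⁻¹).1 =
        (FreeGroup.lift X (FreeGroup.of p)).1.adjugate := by
      rw [map_inv]
      rfl
    rw [h3, ← h2]
    rfl
  | mul x y hx hy =>
    obtain ⟨W, hW⟩ := hx
    obtain ⟨W', hW'⟩ := hy
    refine ⟨fun i j => ∑ l, W i l * W' l j, fun X i j => ?_⟩
    have h1 : (FreeGroup.lift X (x * y)).1 = (FreeGroup.lift X x).1 * (FreeGroup.lift X y).1 := by
      rw [map_mul]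
      rfl
    rw [h1, Matrix.mul_apply, map_sum]
    refine Finset.sum_congr rfl fun l _ => ?_
    rw [map_mul, hW, hW']

/-- the entries of a word are in the subring of the entries -/
theorem word_mem (O : Subring ℂ) (X : ι → SpecialLinearGroup (Fin r) ℂ)
    (hX : ∀ p i j, (X p).1 i j ∈ O) (w : FreeGroup ι) (i j : Fin r) :
    (FreeGroup.lift X w).1 i j ∈ O := by
  have hY : ∀ p, ∃ Y : SpecialLinearGroup (Fin r) O, SpecialLinearGroup.map O.subtype Y = X p := by
    intro p
    refine ⟨⟨Matrix.of fun i j => (⟨(X p).1 i j, hX p i j⟩ : O), ?_⟩, ?_⟩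
    · apply Subtype.ext
      have h1 := (X p).2
      have h2 := RingHom.map_det O.subtype (Matrix.of fun i j => (⟨(X p).1 i j, hX p i j⟩ : O))
      have h3 : O.subtype.mapMatrix (Matrix.of fun i j => (⟨(X p).1 i j, hX p i j⟩ : O)) =
          (X p).1 := by
        ext i j
        rfl
      rw [h3, h1] at h2
      exact h2
    · ext i j
      rfl
  choose Y hY using hY
  have h1 : FreeGroup.lift X = (SpecialLinearGroup.map O.subtype).comp (FreeGroup.lift Y) := by
    ext1 p
    simp [hY]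
  rw [h1, MonoidHom.comp_apply]
  exact SetLike.coe_mem ((FreeGroup.lift Y w).1 i j)

/-- Cramer's rule over a subring -/
theorem cramer_mem (O : Subring ℂ) {d : ℕ} (G : Matrix (Fin d) (Fin d) ℂ)
    (hG : ∀ i j, G i j ∈ O) (x : Fin d → ℂ) (hx : ∀ i, (G *ᵥ x) i ∈ O) (i : Fin d) :
    G.det * x i ∈ O := by
  obtain ⟨G', rfl⟩ : ∃ G' : Matrix (Fin d) (Fin d) O, O.subtype.mapMatrix G' = G :=
    ⟨Matrix.of fun i j => ⟨G i j, hG i j⟩, by ext i j; rfl⟩
  have h1 : (O.subtype.mapMatrix G').adjugate *ᵥ ((O.subtype.mapMatrix G') *ᵥ x) =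
      (O.subtype.mapMatrix G').det • x := by
    rw [Matrix.mulVec_mulVec, Matrix.adjugate_mul, Matrix.smul_mulVec, Matrix.one_mulVec]
  have h2 := congrFun h1 i
  rw [Pi.smul_apply, smul_eq_mul] at h2
  rw [← h2, Matrix.mulVec, dotProduct]
  refine O.sum_mem fun j _ => O.mul_mem ?_ (hx j)
  rw [← RingHom.map_adjugate]
  exact SetLike.coe_mem (G'.adjugate i j)

/-- **Algebraic forms.** A semisimple representation with algebraic traces is conjugate to one
with algebraic entries; its words are combinations of finitely many words, with nondegenerate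
Gram matrix. -/
theorem alg_form [Finite ι] (R : Set (FreeGroup ι)) (X : ι → SpecialLinearGroup (Fin r) ℂ)
    (hX : X ∈ YNone R r)
    (ht : ∀ x, (FreeGroup.lift X x).1.trace ∈ algebraicClosure ℚ ℂ) :
    ∃ (X' : ι → SpecialLinearGroup (Fin r) ℂ) (g : SpecialLinearGroup (Fin r) ℂ)
      (d : ℕ) (u : Fin d → FreeGroup ι),
      (∀ p, X' p = g * X p * g⁻¹) ∧ (∀ p i j, (X' p).1 i j ∈ algebraicClosure ℚ ℂ) ∧
      (Matrix.of fun i j => (FreeGroup.lift X (u i * u j)).1.trace : Matrix (Fin d) (Fin d) ℂ).det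
        ≠ 0 ∧
      ∀ w, ∃ c : Fin d → ℂ, (FreeGroup.lift X' w).1 = ∑ i, c i • (FreeGroup.lift X' (u i)).1 := by
  have hSS : SSOn (⊤ : Subgroup (FreeGroup ι)) (FreeGroup.lift X) := by
    intro W hW
    obtain ⟨W', h1, h2⟩ := hX.2 W ((H252.isInv_iff X W).2 fun z v hv => hW z (Subgroup.mem_top z) v hv)
    exact ⟨W', fun z _ v hv => (H252.isInv_iff X W').1 h1 z v hv, h2⟩
  obtain ⟨d, u, hu, hli, hsp⟩ := exists_gram hSS
  obtain ⟨G, hG⟩ : ∃ G : Matrix (Fin d) (Fin d) ℂ, G = gramW (resM ⊤ (FreeGroup.lift X)) u :=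
    ⟨_, rfl⟩
  have hGt : ∀ i j, G i j = (FreeGroup.lift X ((u i).1 * (u j).1)).1.trace := by
    intro i j
    rw [hG]
    rfl
  rw [← hG] at hu
  -- the coordinates
  have hc0 : ∀ w : FreeGroup ι, ∃ c : Fin d → ℂ,
      (FreeGroup.lift X w).1 = ∑ i, c i • (FreeGroup.lift X (u i).1).1 := by
    intro w
    obtain ⟨c, hc⟩ := (Submodule.mem_span_range_iff_exists_fun ℂ).1 (hsp ⟨w, Subgroup.mem_top w⟩)
    exact ⟨c, hc.symm⟩
  choose c hc using hc0
  have hGc : ∀ w i, (G *ᵥ c w) i = (FreeGroup.lift X ((u i).1 * w)).1.trace := by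
    intro w i
    have h1 : (FreeGroup.lift X ((u i).1 * w)).1 = ∑ j, c w j •
        ((FreeGroup.lift X (u i).1).1 * (FreeGroup.lift X (u j).1).1) := by
      have h2 : (FreeGroup.lift X ((u i).1 * w)).1 =
          (FreeGroup.lift X (u i).1).1 * (FreeGroup.lift X w).1 := by
        rw [map_mul]
        rfl
      rw [h2, hc w, Finset.mul_sum]
      refine Finset.sum_congr rfl fun j _ => ?_
      rw [mul_smul_comm]
    rw [h1, Matrix.trace_sum, Matrix.mulVec, dotProduct]
    refine Finset.sum_congr rfl fun j _ => ?_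
    rw [Matrix.trace_smul, smul_eq_mul, mul_comm, hGt, map_mul]
    rfl
  have hcalg : ∀ w i, c w i ∈ algebraicClosure ℚ ℂ := by
    intro w i
    have h1 : G.det * c w i ∈ (algebraicClosure ℚ ℂ).toSubring :=
      cramer_mem _ G (fun i j => by rw [hGt]; exact ht _) (c w) (fun i => by
        rw [hGc]; exact ht _) i
    have h2 : G.det ∈ (algebraicClosure ℚ ℂ) := by
      rw [Matrix.det_apply]
      refine sum_mem fun σ _ => ?_
      rw [Units.smul_def, zsmul_eq_mul]
      refine mul_mem (intCast_mem _ _) (prod_mem fun i _ => ?_)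
      rw [hGt]
      exact ht _
    have h3 : c w i = (G.det)⁻¹ * (G.det * c w i) := by
      rw [← mul_assoc, inv_mul_cancel₀ hu, one_mul]
    rw [h3]
    exact mul_mem (inv_mem h2) h1
  -- the specialization
  obtain ⟨c₀, hc₀, -⟩ := exists_spec (H252.coords X) 1 (by rw [map_one]; exact one_ne_zero)
  choose W hW using word_poly (ι := ι) (r := r)
  have hdet : ∀ p, (Matrix.of fun i j => (c₀ (p, i, j) : ℂ)).det = 1 := by
    intro p
    have h1 := hc₀ ((Matrix.of fun i j => (MvPolynomial.X (p, i, j) :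
      MvPolynomial (ι × Fin r × Fin r) Kb)).det - 1) (by
        rw [map_sub, map_one, aeval_det, sub_eq_zero, ← (X p).2]
        congr 1
        ext i j
        rw [Matrix.map_apply, Matrix.of_apply, MvPolynomial.aeval_X]
        rfl)
    rw [map_sub, map_one, aeval_det, sub_eq_zero] at h1
    rw [← h1]
    congr 1
    ext i j
    rw [Matrix.map_apply, Matrix.of_apply, Matrix.of_apply, MvPolynomial.aeval_X]
    rfl
  obtain ⟨X', hX'⟩ : ∃ X' : ι → SpecialLinearGroup (Fin r) ℂ, ∀ p i j,
      (X' p).1 i j = (c₀ (p, i, j) : ℂ) := ⟨fun p => ⟨_, hdet p⟩, fun p i j => rfl⟩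
  have hcoord : H252.coords X' = emb c₀ := by
    funext q
    exact hX' q.1 q.2.1 q.2.2
  rw [← hcoord] at hc₀
  have hrel : ∀ w, (FreeGroup.lift X' w).1 = ∑ i, c w i • (FreeGroup.lift X' (u i).1).1 := by
    intro w
    ext a b
    have h1 := hc₀ (W w a b - ∑ i, MvPolynomial.C (⟨c w i, hcalg w i⟩ : Kb) * W (u i).1 a b) (by
      rw [map_sub, map_sum, sub_eq_zero, ← hW, hc w, Matrix.sum_apply]
      refine Finset.sum_congr rfl fun i _ => ?_
      rw [map_mul, MvPolynomial.aeval_C, ← hW, Matrix.smul_apply, smul_eq_mul]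
      rfl)
    rw [map_sub, map_sum, sub_eq_zero, ← hW] at h1
    rw [h1, Matrix.sum_apply]
    refine Finset.sum_congr rfl fun i _ => ?_
    rw [map_mul, MvPolynomial.aeval_C, ← hW, Matrix.smul_apply, smul_eq_mul]
    rfl
  have htr : ∀ w, (FreeGroup.lift X' w).1.trace = (FreeGroup.lift X w).1.trace := by
    intro w
    have h1 := hc₀ (∑ a, W w a a - MvPolynomial.C (⟨_, ht w⟩ : Kb)) (by
      rw [map_sub, map_sum, sub_eq_zero, MvPolynomial.aeval_C]
      exact Finset.sum_congr rfl fun a _ => (hW w X a a).symm)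
    rw [map_sub, map_sum, sub_eq_zero, MvPolynomial.aeval_C] at h1
    refine Eq.trans ?_ h1
    exact Finset.sum_congr rfl fun a _ => (hW w X' a a)
  -- semisimplicity
  have hG' : gramW (resM ⊤ (FreeGroup.lift X')) u = G := by
    ext i j
    rw [hGt]
    exact htr _
  have hSS' : SSOn (⊤ : Subgroup (FreeGroup ι)) (FreeGroup.lift X') := by
    have h1 := (crit (resM ⊤ (FreeGroup.lift X'))).2 ⟨d, ?_, fun v hv => ?_, u, by rwa [hG']⟩
    · intro W hW
      obtain ⟨W', h2, h3⟩ := h1 W fun x w hw => hW x.1 x.2 w hw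
      exact ⟨W', fun z hz w hw => h2 ⟨z, hz⟩ w hw, h3⟩
    · have h5 := hli.fintype_card_le_finrank
      rwa [Module.finrank_matrix, Module.finrank_self, Fintype.card_fin, Fintype.card_fin,
        mul_one] at h5
    · have h5 : ∀ i, resM ⊤ (FreeGroup.lift X') (v i) ∈
          Submodule.span ℂ (Set.range fun i => resM ⊤ (FreeGroup.lift X') (u i)) := fun i =>
        (Submodule.mem_span_range_iff_exists_fun ℂ).2 ⟨c (v i).1, (hrel (v i).1).symm⟩
      have h6 : LinearIndependent ℂ (fun i => (⟨resM ⊤ (FreeGroup.lift X') (v i), h5 i⟩ :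
          Submodule.span ℂ (Set.range fun i => resM ⊤ (FreeGroup.lift X') (u i)))) :=
        LinearIndependent.of_comp (Submodule.subtype _) hv
      have h7 := h6.fintype_card_le_finrank
      have h8 := finrank_range_le_card (R := ℂ) fun i => resM ⊤ (FreeGroup.lift X') (u i)
      rw [Set.finrank] at h8
      rw [Fintype.card_fin] at h7 h8
      omega
  obtain ⟨g, hg⟩ := H377.conj_of_trace (⊤ : Subgroup (FreeGroup ι)) (FreeGroup.lift X)
    (FreeGroup.lift X') hSS hSS' (fun x _ => (htr x).symm)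
  refine ⟨X', g, d, fun i => (u i).1, fun p => ?_, fun p i j => ?_, ?_, fun w => ⟨c w, hrel w⟩⟩
  · have h1 := hg (FreeGroup.of p) (Subgroup.mem_top _)
    rwa [FreeGroup.lift_apply_of, FreeGroup.lift_apply_of] at h1
  · rw [hX']
    exact (c₀ (p, i, j)).2
  · have h1 : (Matrix.of fun i j => (FreeGroup.lift X ((u i).1 * (u j).1)).1.trace :
        Matrix (Fin d) (Fin d) ℂ) = G := by
      ext i j
      rw [hGt]
      rfl
    rwa [h1]

theorem alg_of_at {P : Ideal (integralClosure ℤ ℂ)} {z : ℂ} (h : IsIntegralAt P z) :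
    z ∈ algebraicClosure ℚ ℂ := by
  obtain ⟨b, hb, hbz⟩ := h
  have hb0 : (b : ℂ) ≠ 0 := by
    intro h
    apply hb
    have h2 : b = 0 := Subtype.ext h
    rw [h2]
    exact P.zero_mem
  rw [mem_algebraicClosure_iff]
  have h2 : IsAlgebraic ℚ ((b : ℂ) * z) := ((hbz.tower_top : IsIntegral ℚ _)).isAlgebraic
  have h3 : IsAlgebraic ℚ (b : ℂ) := ((b.2.tower_top : IsIntegral ℚ _)).isAlgebraic
  have h4 : z = (b : ℂ)⁻¹ * ((b : ℂ) * z) := by
    rw [← mul_assoc, inv_mul_cancel₀ hb0, one_mul]
  rw [h4]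
  exact h3.inv.mul h2

/-- (D) **Local integral forms.** A semisimple representation with `P`-integral traces is conjugate
to a representation with `P`-integral entries. -/
theorem integral_form_at {ι : Type} [Finite ι] {r : ℕ} (R : Set (FreeGroup ι))
    (P : Ideal (integralClosure ℤ ℂ)) (hP : P.IsMaximal) (X : ι → SpecialLinearGroup (Fin r) ℂ)
    (hX : X ∈ YNone R r) (ht : ∀ x, IsIntegralAt P (FreeGroup.lift X x).1.trace) :
    ∃ g : SpecialLinearGroup (Fin r) ℂ, ∀ p i j, IsIntegralAt P ((g * X p * g⁻¹).1 i j) := by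
  obtain ⟨X', g, d, u, hgX, hXa, hu, hrel⟩ := alg_form R X hX fun x => alg_of_at (ht x)
  have hP' : P.IsPrime := hP.isPrime
  obtain ⟨G, hG⟩ : ∃ G : Matrix (Fin d) (Fin d) ℂ, G =
      Matrix.of fun i j => (FreeGroup.lift X (u i * u j)).1.trace := ⟨_, rfl⟩
  rw [← hG] at hu
  have hX' : X' = fun p => g * X p * g⁻¹ := funext hgX
  have htr : ∀ w, (FreeGroup.lift X' w).1.trace = (FreeGroup.lift X w).1.trace := by
    intro w
    rw [hX', trace_conj]
  have hGt : ∀ i j, G i j = (FreeGroup.lift X' (u i * u j)).1.trace := by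
    intro i j
    rw [htr, hG]
    rfl
  have ht' : ∀ x, (FreeGroup.lift X' x).1.trace ∈ loc P hP' := fun x => by
    rw [htr]
    exact ht x
  choose c hc using hrel
  have hGc : ∀ w i, (G *ᵥ c w) i = (FreeGroup.lift X' (u i * w)).1.trace := by
    intro w i
    have h1 : (FreeGroup.lift X' (u i * w)).1 = ∑ j, c w j •
        ((FreeGroup.lift X' (u i)).1 * (FreeGroup.lift X' (u j)).1) := by
      have h2 : (FreeGroup.lift X' (u i * w)).1 =
          (FreeGroup.lift X' (u i)).1 * (FreeGroup.lift X' w).1 := by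
        rw [map_mul]
        rfl
      rw [h2, hc w, Finset.mul_sum]
      refine Finset.sum_congr rfl fun j _ => ?_
      rw [mul_smul_comm]
    rw [h1, Matrix.trace_sum, Matrix.mulVec, dotProduct]
    refine Finset.sum_congr rfl fun j _ => ?_
    rw [Matrix.trace_smul, smul_eq_mul, mul_comm, hGt, map_mul]
    rfl
  have hcP : ∀ w i, G.det * c w i ∈ loc P hP' := fun w i =>
    cramer_mem _ G (fun i j => by rw [hGt]; exact ht' _) (c w) (fun i => by
      rw [hGc]; exact ht' _) i
  -- the number field and the common denominator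
  have := Fintype.ofFinite ι
  have hua : ∀ w i j, (FreeGroup.lift X' w).1 i j ∈ algebraicClosure ℚ ℂ := fun w i j =>
    word_mem (algebraicClosure ℚ ℂ).toSubring X' hXa w i j
  obtain ⟨D, hD0, hDi, hD⟩ := H252.common_den
    (fun a : Fin d × Fin r × Fin r => (FreeGroup.lift X' (u a.1)).1 a.2.1 a.2.2)
    (fun a => (mem_algebraicClosure_iff.1 (hua _ _ _)).isIntegral)
  have hGalg : G.det ∈ algebraicClosure ℚ ℂ := by
    rw [Matrix.det_apply]
    refine sum_mem fun σ _ => ?_
    rw [Units.smul_def, zsmul_eq_mul]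
    refine mul_mem (intCast_mem _ _) (prod_mem fun i _ => ?_)
    rw [hGt]
    exact alg_of_at (ht' _)
  have hDalg : D ∈ algebraicClosure ℚ ℂ :=
    mem_algebraicClosure_iff.2 (hDi.tower_top : IsIntegral ℚ D).isAlgebraic
  obtain ⟨E, hE, hES⟩ := exists_field
    (insert (G.det * D) (Set.range fun a : ι × Fin r × Fin r => (X' a.1).1 a.2.1 a.2.2))
    ((Set.finite_range _).insert _) (by
      rintro x (rfl | ⟨a, rfl⟩)
      · exact mul_mem hGalg hDalg
      · exact hXa _ _ _)
  have hXE : ∀ w i j, (FreeGroup.lift X' w).1 i j ∈ E := fun w i j =>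
    word_mem E.toSubring X' (fun p i j => hES _ (Or.inr ⟨(p, i, j), rfl⟩)) w i j
  obtain ⟨g', hg'⟩ := conj_of_bounded hP' E hE X' (G.det * D) (mul_ne_zero hu hD0)
    (hES _ (Or.inl rfl)) hXE (fun w i j => by
      have h1 : G.det * D * (FreeGroup.lift X' w).1 i j =
          ∑ k, (G.det * c w k) * (D * (FreeGroup.lift X' (u k)).1 i j) := by
        rw [hc w, Matrix.sum_apply, Finset.mul_sum]
        refine Finset.sum_congr rfl fun k _ => ?_
        rw [Matrix.smul_apply, smul_eq_mul]
        ring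
      rw [h1]
      refine (loc P hP').sum_mem fun k _ => (loc P hP').mul_mem (hcP w k) ?_
      exact mem_loc_of_int hP' (hD (k, i, j)))
  refine ⟨g' * g, fun p i j => ?_⟩
  have h1 : g' * g * X p * (g' * g)⁻¹ = g' * X' p * g'⁻¹ := by
    rw [hgX]
    group
  rw [h1]
  exact hg' p i j

end Vale.Agent.P002.R2.H955
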