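import Vale.Agent.P002.R2.H955.GlobTr
import Vale.Agent.P002.R2.H426.Fam

/-!
# P002: from local integrality to integrality along a family of vectors of traces over a torus
-/

namespace Vale.Agent.P002.R2.H955

open Matrix Finset Vale.Agent.P002.R2.H426 Vale.Agent.P002.H2 Vale.Agent.P002.R2
  Vale.Agent.P002.R2.H524

variable {ι : Type} {r m n : ℕ} {P : Ideal (integralClosure ℤ ℂ)}

/-- the trace polynomial of a word, at a point integral at `P` -/
theorem T_mem (hP : P.IsPrime) (A : Wd m ι → MvPolynomial (Fin n ⊕ Fin n) Kb)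
    (l : List (ι × Bool)) (p : MvPolynomial (Fin n ⊕ Fin n) Kb) (k : ℕ)
    (hp : ∀ t : Fin n → ℂˣ, MvPolynomial.aeval (tt t) p *
      (Gm fun x => MvPolynomial.aeval (tt t) (A x)).det ^ k =
        Ph (fun x => MvPolynomial.aeval (tt t) (A x)) l)
    (hA : ∀ x c, IsIntegralAt P (((A x).coeff c : Kb) : ℂ))
    (b : ℕ) (g₀ : MvPolynomial (Fin n) Kb)
    (hg₀ : ∀ t : Fin n → ℂˣ, (∏ i, (t i : ℂ)) ^ b *
      (Gm fun x => MvPolynomial.aeval (tt t) (A x)).det =
        MvPolynomial.aeval (fun i => (t i : ℂ)) g₀)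
    (h5 : ∀ l, IsIntegralAt P ((g₀.coeff l : Kb) : ℂ))
    (h6 : ∃ l, g₀.coeff l ≠ 0 ∧ IsIntegralAt P ((g₀.coeff l : Kb) : ℂ)⁻¹)
    (t : Fin n → ℂˣ) (htP : ∀ k, IsIntegralAt P (tt t k)) :
    IsIntegralAt P (MvPolynomial.aeval (tt t) p) := by
  classical
  obtain ⟨O, hO⟩ : ∃ O : Subring ℂ, O = loc P hP := ⟨_, rfl⟩
  have mO : ∀ z, IsIntegralAt P z ↔ z ∈ O := fun z => by rw [hO]; exact Iff.rfl
  choose A' hA' using fun x => exists_sub O (A x) fun c => (mO _).1 (hA x c)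
  have hψ : ∀ t : Fin n → ℂˣ, Ph (fun x => MvPolynomial.aeval (tt t) (A x)) l =
      MvPolynomial.aeval (tt t) (Ph A' l) := by
    intro t
    have h1 := map_Ph (MvPolynomial.aeval (R := O) (tt t)).toRingHom A' l
    have h2 : (fun x => (MvPolynomial.aeval (R := O) (tt t)).toRingHom (A' x)) =
        fun x => MvPolynomial.aeval (tt t) (A x) := funext fun x => hA' x (tt t)
    rw [h2] at h1
    exact h1
  obtain ⟨a, F, hF⟩ := clear_den p
  obtain ⟨c, H, hH⟩ := clear_den (Ph A' l)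
  have hev : ∀ {A : Type} [CommRing A] [Algebra A ℂ] (q : MvPolynomial (Fin n) A)
      (x : Fin n → ℂ), MvPolynomial.eval x (MvPolynomial.map (algebraMap A ℂ) q) =
        MvPolynomial.aeval x q := by
    intro A _ _ q x
    rw [MvPolynomial.aeval_def, MvPolynomial.eval₂_eq_eval_map]
  have hEq : (∏ i, MvPolynomial.X i) ^ c * MvPolynomial.map (algebraMap Kb ℂ) F *
      MvPolynomial.map (algebraMap Kb ℂ) g₀ ^ k =
      (∏ i, MvPolynomial.X i) ^ (a + b * k) * MvPolynomial.map (algebraMap O ℂ) H := by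
    refine eq_of_torus (h := 1) one_ne_zero fun t _ => ?_
    rw [map_mul, map_mul, map_mul, map_pow, map_pow, map_pow, map_prod, hev, hev, hev, ← hF,
      ← hg₀, ← hH, ← hψ, ← hp]
    simp only [MvPolynomial.eval_X]
    ring
  have hcoef : ∀ l, IsIntegralAt P (((∏ i, MvPolynomial.X i) ^ c *
      MvPolynomial.map (algebraMap Kb ℂ) F).coeff l) := by
    have hX : ∀ (O : Subring ℂ) (q : MvPolynomial (Fin n) ℂ), (∀ l, q.coeff l ∈ O) → ∀ (k : ℕ) l,
        ((∏ i, MvPolynomial.X i) ^ k * q).coeff l ∈ O := by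
      intro O q hq k l
      obtain ⟨q', rfl⟩ : ∃ q' : MvPolynomial (Fin n) O, MvPolynomial.map O.subtype q' = q := by
        have h1 : q ∈ Set.range (MvPolynomial.map (σ := Fin n) O.subtype) := by
          rw [MvPolynomial.mem_range_map_iff_coeffs_subset]
          intro z hz
          rw [Finset.mem_coe, MvPolynomial.mem_coeffs_iff] at hz
          obtain ⟨m, hm, rfl⟩ := hz
          exact ⟨⟨_, hq m⟩, rfl⟩
        exact h1
      have h8 : (∏ i, MvPolynomial.X i) ^ k * MvPolynomial.map O.subtype q' =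
          MvPolynomial.map O.subtype ((∏ i, MvPolynomial.X i) ^ k * q') := by
        rw [map_mul, map_pow, map_prod]
        simp only [MvPolynomial.map_X]
      rw [h8, MvPolynomial.coeff_map]
      exact SetLike.coe_mem _
    refine gauss_pow hP (g := MvPolynomial.map (algebraMap Kb ℂ) g₀) (fun l => ?_) k
      (fun l => ?_) (fun l => ?_) ?_
    · rw [← mem_algebraicClosure_iff]
      refine hX (algebraicClosure ℚ ℂ).toSubring _ (fun l => ?_) c l
      rw [MvPolynomial.coeff_map]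
      exact SetLike.coe_mem (F.coeff l)
    · rw [hEq]
      refine (mO _).2 (hX O _ (fun l => ?_) _ l)
      rw [MvPolynomial.coeff_map]
      exact SetLike.coe_mem (H.coeff l)
    · rw [MvPolynomial.coeff_map]
      exact h5 l
    · obtain ⟨l, hl, hl'⟩ := h6
      refine ⟨l, ?_, ?_⟩
      · rw [MvPolynomial.coeff_map]
        intro h0
        exact hl ((algebraMap Kb ℂ).injective (by rw [h0, map_zero]))
      · rw [MvPolynomial.coeff_map]
        exact hl'
  have hval : MvPolynomial.aeval (tt t) p =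
      (∏ i, tt t (Sum.inr i)) ^ (c + a) * MvPolynomial.eval (fun i => (t i : ℂ))
        ((∏ i, MvPolynomial.X i) ^ c * MvPolynomial.map (algebraMap Kb ℂ) F) := by
    rw [map_mul, map_pow, map_prod, hev, ← hF]
    simp only [MvPolynomial.eval_X]
    have e1 : (∏ i, tt t (Sum.inr i)) * (∏ i, (t i : ℂ)) = 1 := by
      rw [← Finset.prod_mul_distrib]
      refine Finset.prod_eq_one fun i _ => ?_
      change (((t i)⁻¹ : ℂˣ) : ℂ) * (t i : ℂ) = 1
      rw [← Units.val_mul, inv_mul_cancel, Units.val_one]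
    calc MvPolynomial.aeval (tt t) p
        = ((∏ i, tt t (Sum.inr i)) * (∏ i, (t i : ℂ))) ^ (c + a) *
          MvPolynomial.aeval (tt t) p := by rw [e1, one_pow, one_mul]
      _ = _ := by rw [mul_pow, pow_add (∏ i, (t i : ℂ))]; ring
  rw [hval, mO]
  refine O.mul_mem (O.pow_mem (O.prod_mem fun i _ => (mO _).1 (htP _)) _) ?_
  rw [MvPolynomial.eval_eq']
  exact O.sum_mem fun l _ => O.mul_mem ((mO _).1 (hcoef l))
    (O.prod_mem fun i _ => O.pow_mem ((mO _).1 (htP (Sum.inl i))) _)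

/-- **(X1)** -/
theorem int_fam [Finite ι] {Z : Set (ι → SpecialLinearGroup (Fin r) ℂ)}
    (u : Fin m → FreeGroup ι)
    (hspan : ∀ X ∈ Z, (Gm (trv u X)).det ≠ 0 → ∀ x : FreeGroup ι,
      (FreeGroup.lift X x).1 ∈ Submodule.span ℂ (Set.range fun i => (FreeGroup.lift X (u i)).1))
    (A : Wd m ι → MvPolynomial (Fin n ⊕ Fin n) Kb)
    (hT : ∀ l : List (ι × Bool), ∃ p : MvPolynomial (Fin n ⊕ Fin n) Kb, ∀ t : Fin n → ℂˣ,
      MvPolynomial.aeval (tt t) p *
        (Gm fun x => MvPolynomial.aeval (tt t) (A x)).det ^ (l.length + 1) =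
          Ph (fun x => MvPolynomial.aeval (tt t) (A x)) l)
    (hloc : ∀ P : Ideal (integralClosure ℤ ℂ), P.IsMaximal →
      ∃ (t : Fin n → ℂˣ) (Q : ι → SpecialLinearGroup (Fin r) ℂ),
        (∀ i, (t i : ℂ) ∈ algebraicClosure ℚ ℂ) ∧ Q ∈ Z ∧ (Gm (trv u Q)).det ≠ 0 ∧
        (∀ p i j, IsIntegralAt P ((Q p).1 i j)) ∧
        ∀ v, trv u Q v = MvPolynomial.aeval (tt t) (A v)) :
    ∃ (x : Fin n → ℂˣ) (M : ℕ), 0 < M ∧ (∀ i, (x i : ℂ) ∈ algebraicClosure ℚ ℂ) ∧
      ∀ y : Fin n → ℂˣ, (∀ i, IsIntegral ℤ (y i : ℂ) ∧ IsIntegral ℤ (((y i)⁻¹ : ℂˣ) : ℂ) ∧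
        IsIntegral ℤ (((y i : ℂ) - 1) / M)) →
      ∀ X ∈ Z, (Gm (trv u X)).det ≠ 0 →
        (∀ v, trv u X v = MvPolynomial.aeval (tt fun i => y i * x i) (A v)) →
          ∀ g, IsIntegral ℤ (FreeGroup.lift X g).1.trace := by
  classical
  have := Fintype.ofFinite ι
  have hspan' : ∀ X ∈ Z, (Gm (trv u X)).det ≠ 0 → ∀ x : FreeGroup ι, ∃ c : Fin m → ℂ,
      (FreeGroup.lift X x).1 = ∑ i, c i • (FreeGroup.lift X (u i)).1 := by
    intro X hX hd x
    obtain ⟨c, hc⟩ := (Submodule.mem_span_range_iff_exists_fun ℂ).1 (hspan X hX hd x)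
    exact ⟨c, hc.symm⟩
  have hgm1 : ∀ X : ι → SpecialLinearGroup (Fin r) ℂ, gm X u 1 = Gm (trv u X) := by
    intro X
    ext i j
    change (FreeGroup.lift X (u i * 1 * u j)).1.trace = (FreeGroup.lift X (u i * u j)).1.trace
    rw [mul_one]
  -- the local data with common denominators
  have hdat : ∀ P : {P : Ideal (integralClosure ℤ ℂ) // P.IsMaximal},
      ∃ (t : Fin n → ℂˣ) (Q : ι → SpecialLinearGroup (Fin r) ℂ) (N : integralClosure ℤ ℂ),
        N ∉ P.1 ∧ (∀ i, (t i : ℂ) ∈ algebraicClosure ℚ ℂ) ∧ Q ∈ Z ∧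
        (Gm (trv u Q)).det ≠ 0 ∧ (∀ p i j, IsIntegral ℤ ((N : ℂ) * (Q p).1 i j)) ∧
        ∀ v, trv u Q v = MvPolynomial.aeval (tt t) (A v) := by
    rintro ⟨P, hP⟩
    obtain ⟨t, Q, ht, hQ, hd, h, hv⟩ := hloc P hP
    obtain ⟨N, hN, h1⟩ := common_den hP.isPrime
      (fun q : ι × Fin r × Fin r => (Q q.1).1 q.2.1 q.2.2) fun q => h _ _ _
    exact ⟨t, Q, N, hN, ht, hQ, hd, fun p i j => h1 (p, i, j), hv⟩
  choose t Q N hN ht hQ hQd hint hQv using hdat
  -- finitely many of them suffice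
  have hspan1 : (1 : integralClosure ℤ ℂ) ∈ Ideal.span (Set.range N) := by
    by_contra hcon
    obtain ⟨P, hP, hle⟩ := Ideal.exists_le_maximal _ fun h =>
      hcon ((Ideal.eq_top_iff_one _).1 h)
    exact hN ⟨P, hP⟩ (hle (Ideal.subset_span ⟨⟨P, hP⟩, rfl⟩))
  obtain ⟨c, hc⟩ := Finsupp.mem_span_range_iff_exists_finsupp.1 hspan1
  set e : Fin c.support.card ≃ c.support := c.support.equivFin.symm with he
  have hcN : ∑ j, c (e j) * N (e j) = 1 := by
    rw [← hc, Finsupp.sum, ← Finset.sum_coe_sort c.support]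
    exact Fintype.sum_equiv e _ _ fun j => rfl
  have htta : ∀ (s : Fin n → ℂˣ), (∀ i, (s i : ℂ) ∈ algebraicClosure ℚ ℂ) →
      ∀ k, tt s k ∈ algebraicClosure ℚ ℂ := by
    intro s hs k
    rcases k with i | i
    · exact hs i
    · change (((s i)⁻¹ : ℂˣ) : ℂ) ∈ _
      rw [Units.val_inv_eq_inv_val]
      exact inv_mem (hs i)
  have haev : ∀ (s : Fin n → ℂˣ), (∀ i, (s i : ℂ) ∈ algebraicClosure ℚ ℂ) →
      ∀ p : MvPolynomial (Fin n ⊕ Fin n) Kb,
        MvPolynomial.aeval (tt s) p ∈ algebraicClosure ℚ ℂ := by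
    intro s hs p
    rw [MvPolynomial.aeval_def, MvPolynomial.eval₂_eq']
    exact sum_mem fun m _ => mul_mem (SetLike.coe_mem _)
      (prod_mem fun k _ => pow_mem (htta s hs k) _)
  -- the polynomial of the determinant
  obtain ⟨b, g₀, hg₀⟩ := clear_den (Gm A).det
  have hdetA : ∀ t : Fin n → ℂˣ, MvPolynomial.aeval (tt t) (Gm A).det =
      (Gm fun x => MvPolynomial.aeval (tt t) (A x)).det := fun t =>
    (map_det_Gm (MvPolynomial.aeval (R := Kb) (tt t)).toRingHom A).symm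
  have hg₀' : ∀ t : Fin n → ℂˣ, (∏ i, (t i : ℂ)) ^ b *
      (Gm fun x => MvPolynomial.aeval (tt t) (A x)).det =
        MvPolynomial.aeval (fun i => (t i : ℂ)) g₀ := by
    intro t
    rw [← hg₀, hdetA]
  have hQA : ∀ P, (Gm (trv u (Q P))).det = MvPolynomial.aeval (tt (t P)) (Gm A).det := by
    intro P
    rw [hdetA]
    congr 2
    exact funext fun v => hQv P v
  obtain ⟨l₀, hl₀⟩ : ∃ l, g₀.coeff l ≠ 0 := by
    by_contra hcon
    push Not at hcon
    obtain ⟨P₀, hP₀⟩ := Ideal.exists_maximal (integralClosure ℤ ℂ)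
    have h1 := hg₀ (t ⟨P₀, hP₀⟩)
    have h2 : g₀ = 0 := by
      ext l
      rw [hcon l, MvPolynomial.coeff_zero]
    rw [h2, map_zero, mul_eq_zero, ← hQA] at h1
    rcases h1 with h1 | h1
    · exact pow_ne_zero b (Finset.prod_ne_zero_iff.2 fun i _ =>
        (t ⟨P₀, hP₀⟩ i).ne_zero) h1
    · exact hQd _ h1
  -- the denominators
  obtain ⟨D₁, hD₁, hD₁i⟩ := dens_fin
    (fun q : Fin c.support.card × Wd m ι => (A q.2).support)
    (fun q l => (((A q.2).coeff l : Kb) : ℂ) * ∏ k, tt (t (e q.1)) k ^ l k)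
    fun q l _ => mem_algebraicClosure_iff.1
      (mul_mem (SetLike.coe_mem _) (prod_mem fun k _ => pow_mem (htta _ (ht _) k) _))
  obtain ⟨D₂, hD₂, hD₂i⟩ := exists_dens
    (fun j : Fin c.support.card => ((Gm (trv u (Q (e j)))).det ^ 3)⁻¹) fun j => by
      rw [hQA]
      exact mem_algebraicClosure_iff.1 (inv_mem (pow_mem (haev _ (ht _) _) _))
  obtain ⟨D₃, hD₃, hD₃i⟩ := dens_fin
    (fun q : Wd m ι => (A q).support)
    (fun q l => (((A q).coeff l : Kb) : ℂ))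
    fun q l _ => mem_algebraicClosure_iff.1 (SetLike.coe_mem _)
  obtain ⟨D₄, hD₄, hD₄i⟩ := dens_fin
    (fun _ : Unit => g₀.support) (fun _ l => ((g₀.coeff l : Kb) : ℂ))
    fun q l _ => mem_algebraicClosure_iff.1 (SetLike.coe_mem _)
  obtain ⟨D₅, hD₅, hD₅i⟩ := exists_den (mem_algebraicClosure_iff.1 (inv_mem
    (SetLike.coe_mem (g₀.coeff l₀))) : IsAlgebraic ℚ ((g₀.coeff l₀ : Kb) : ℂ)⁻¹)
  obtain ⟨D, hD⟩ : ∃ D : ℕ, D = D₁ * (D₂ * (D₃ * (D₄ * D₅))) := ⟨_, rfl⟩
  have hD0 : 0 < D := by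
    rw [hD]
    exact Nat.mul_pos hD₁ (Nat.mul_pos hD₂ (Nat.mul_pos hD₃ (Nat.mul_pos hD₄ hD₅)))
  have hDc : (D : ℂ) ≠ 0 := by exact_mod_cast hD0.ne'
  have hD2c : (D : ℂ) ^ 2 ≠ 0 := pow_ne_zero 2 hDc
  obtain ⟨x, k, hx, hnear⟩ := exists_near_family (fun j i => (t (e j) i : ℂ))
    (fun j i => (t (e j) i).ne_zero) (fun j i => mem_algebraicClosure_iff.1 (ht _ i))
    (fun j => N (e j)) (fun j => c (e j)) hcN D hD0 2
  have hxa : ∀ i, x i ∈ algebraicClosure ℚ ℂ := by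
    intro i
    have h1 : IsAlgebraic ℚ ((D : ℂ) ^ k * x i) :=
      ((hx i).2.1.tower_top (A := ℚ)).isAlgebraic
    have h2 : (D : ℂ) ^ k * x i ∈ algebraicClosure ℚ ℂ := mem_algebraicClosure_iff.2 h1
    have h3 : x i = ((D : ℂ) ^ k)⁻¹ * ((D : ℂ) ^ k * x i) := by
      field_simp
    rw [h3]
    exact mul_mem (inv_mem (pow_mem (natCast_mem _ _) _)) h2
  refine ⟨fun i => Units.mk0 (x i) (hx i).1, D ^ 2, pow_pos hD0 2, hxa,
    fun v hv X hX hXd hXv w => ?_⟩
  refine isIntegral_of_loc fun P hP => ?_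
  have hP' := hP.isPrime
  by_cases hDP : (D : integralClosure ℤ ℂ) ∈ P
  · obtain ⟨j, hNj, a, ha, hax⟩ := hnear P hP hDP
    have hDm : (D : ℂ) ^ 2 ∈ loc P hP' := (loc P hP').pow_mem (mem_loc_of_int hP' (natInt D)) 2
    -- the ratio
    obtain ⟨ρ, hρ⟩ : ∃ ρ : Fin n → ℂˣ,
        ρ = fun i => v i * Units.mk0 (x i) (hx i).1 * (t (e j) i)⁻¹ := ⟨_, rfl⟩
    have hfam : (fun i => v i * Units.mk0 (x i) (hx i).1) = fun i => ρ i * t (e j) i := by
      funext i
      rw [hρ]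
      simp
    have hM : ((D ^ 2 : ℕ) : ℂ) = (D : ℂ) ^ 2 := by push_cast; rfl
    have hu1 : ∀ i, (v i : ℂ) ∈ nr (loc P hP') ((D : ℂ) ^ 2) hDm := fun i =>
      mem_nr hDm hD2c (by
        rw [← hM]
        exact mem_loc_of_int hP' (hv i).2.2)
    have hu2 : ∀ i, (((v i)⁻¹ : ℂˣ) : ℂ) ∈ nr (loc P hP') ((D : ℂ) ^ 2) hDm := fun i => by
      refine mem_nr hDm hD2c ?_
      have h1 : ((((v i)⁻¹ : ℂˣ) : ℂ) - 1) / (D : ℂ) ^ 2 =
          -((((v i)⁻¹ : ℂˣ) : ℂ) * (((v i : ℂ) - 1) / (D : ℂ) ^ 2)) := by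
        rw [Units.val_inv_eq_inv_val]
        have := (v i).ne_zero
        field_simp
        ring
      rw [h1, ← hM]
      exact (loc P hP').neg_mem ((loc P hP').mul_mem (mem_loc_of_int hP' (hv i).2.1)
        (mem_loc_of_int hP' (hv i).2.2))
    have hx1 : ∀ i, x i / (t (e j) i : ℂ) ∈ nr (loc P hP') ((D : ℂ) ^ 2) hDm := fun i => by
      refine mem_nr hDm hD2c ⟨a, ha, ?_⟩
      have := (hax i).1
      rwa [mul_div_assoc] at this
    have hx2 : ∀ i, (t (e j) i : ℂ) / x i ∈ nr (loc P hP') ((D : ℂ) ^ 2) hDm := fun i => by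
      refine mem_nr hDm hD2c ⟨a, ha, ?_⟩
      have := (hax i).2
      rwa [mul_div_assoc] at this
    have hρnr : ∀ k, tt ρ k ∈ nr (loc P hP') ((D : ℂ) ^ 2) hDm := by
      intro k
      rcases k with i | i
      · have h1 : tt ρ (Sum.inl i) = (v i : ℂ) * (x i / (t (e j) i : ℂ)) := by
          simp [tt, hρ, div_eq_mul_inv, mul_assoc]
        rw [h1]
        exact Submonoid.mul_mem _ (hu1 i) (hx1 i)
      · have h1 : tt ρ (Sum.inr i) = (((v i)⁻¹ : ℂˣ) : ℂ) * ((t (e j) i : ℂ) / x i) := by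
          simp [tt, hρ, div_eq_mul_inv]
          ring
        rw [h1]
        exact Submonoid.mul_mem _ (hu2 i) (hx2 i)
    have hQt : ∀ w, IsIntegralAt P (FreeGroup.lift (Q (e j)) w).1.trace := fun w =>
      trace_mem (loc P hP') _ (fun p i i' => ⟨N (e j), hNj, hint (e j) p i i'⟩) w
    have hDe : ((D : integralClosure ℤ ℂ) : ℂ) = (D : ℂ) := by push_cast; rfl
    -- the traces of the finitely many words are close
    have hclose : ∀ q : Wd m ι, ∃ o, IsIntegralAt P o ∧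
        trv u X q - trv u (Q (e j)) q =
        ((D : integralClosure ℤ ℂ) : ℂ) * (gm (Q (e j)) u 1).det ^ 3 * o := by
      intro q
      obtain ⟨o, ho, h1⟩ := eval_diff hDm (MvPolynomial.map (algebraMap Kb ℂ) (A q))
        (t (e j)) ρ hρnr (D₁ : ℂ) (fun l hl => by
          have h2 := hD₁i (j, q) l (MvPolynomial.support_map_subset _ _ hl)
          rw [MvPolynomial.coeff_map]
          exact mem_loc_of_int hP' h2)
      have hev : ∀ (q : MvPolynomial (Fin n ⊕ Fin n) Kb) (x : Fin n ⊕ Fin n → ℂ),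
          MvPolynomial.eval x (MvPolynomial.map (algebraMap Kb ℂ) q) =
            MvPolynomial.aeval x q := by
        intro q x
        rw [MvPolynomial.aeval_def, MvPolynomial.eval₂_eq_eval_map]
      rw [hev, hev, ← hfam, ← hXv q, ← hQv] at h1
      have hΔ := hQd (e j)
      rw [hgm1]
      refine ⟨((D₂ : ℂ) * ((Gm (trv u (Q (e j)))).det ^ 3)⁻¹) * ((D₃ * (D₄ * D₅) : ℕ) : ℂ) * o,
        ?_, ?_⟩
      · exact (loc P hP').mul_mem ((loc P hP').mul_mem (mem_loc_of_int hP' (hD₂i j))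
          (mem_loc_of_int hP' (natInt _))) ho
      · have hD₁c : (D₁ : ℂ) ≠ 0 := by exact_mod_cast hD₁.ne'
        apply mul_left_cancel₀ hD₁c
        rw [h1, hDe]
        have h2 : (D : ℂ) = D₁ * (D₂ * ((D₃ * (D₄ * D₅) : ℕ) : ℂ)) := by
          rw [hD]
          push_cast
          ring
        have h3 : (Gm (trv u (Q (e j)))).det ^ 3 * ((Gm (trv u (Q (e j)))).det ^ 3)⁻¹ = 1 :=
          mul_inv_cancel₀ (pow_ne_zero 3 hΔ)
        calc (D : ℂ) ^ 2 * o = (D : ℂ) * (D₁ * (D₂ * ((D₃ * (D₄ * D₅) : ℕ) : ℂ))) * o *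
              ((Gm (trv u (Q (e j)))).det ^ 3 * ((Gm (trv u (Q (e j)))).det ^ 3)⁻¹) := by
                rw [h3, mul_one, ← h2]
                ring
          _ = _ := by ring
    refine perturb hP' u (Q (e j)) X hQt (by rw [hgm1]; exact hQd _)
      (hspan' _ (hQ _) (hQd _)) (hspan' _ hX hXd)
      hDP (fun i i' => ?_)
      (fun p i i' => hclose (Sum.inr (Sum.inr (i, (p, true), i'))))
      (fun p i i' => hclose (Sum.inr (Sum.inr (i, (p, false), i')))) w
    have h1 := hclose (Sum.inl (i, i'))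
    rw [hgm1, hgm1] at *
    exact h1
  · have hAP : ∀ q c, IsIntegralAt P (((A q).coeff c : Kb) : ℂ) := by
      intro q l
      by_cases hl : l ∈ (A q).support
      · exact at_of_dvd hP' hDP ⟨D₁ * (D₂ * (D₄ * D₅)), by rw [hD]; ring⟩ (hD₃i q l hl)
      · rw [MvPolynomial.notMem_support_iff.1 hl]
        exact (loc P hP').zero_mem
    obtain ⟨l, rfl⟩ : ∃ l, FreeGroup.mk l = w := ⟨w.toWord, FreeGroup.mk_toWord⟩
    obtain ⟨p, hp⟩ := hT l
    have h1 := T_mem hP' A l p (l.length + 1) hp hAP b g₀ hg₀' (fun l => ?_) ⟨l₀, hl₀, ?_⟩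
      (fun i => v i * Units.mk0 (x i) (hx i).1) (fun q => ?_)
    · have h2 := trace_eq_Ph u X (hspan X hX hXd) l
      have h3 : trv u X = fun x_1 => MvPolynomial.aeval
          (tt fun i => v i * Units.mk0 (x i) (hx i).1) (A x_1) := funext hXv
      have h4 := hp fun i => v i * Units.mk0 (x i) (hx i).1
      rw [← h3, ← h2] at h4
      have h5 := mul_right_cancel₀ (pow_ne_zero _ hXd) h4
      rw [← h5]
      exact h1
    · by_cases hl : l ∈ g₀.support
      · exact at_of_dvd hP' hDP ⟨D₁ * (D₂ * (D₃ * D₅)), by rw [hD]; ring⟩ (hD₄i () l hl)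
      · rw [MvPolynomial.notMem_support_iff.1 hl]
        exact (loc P hP').zero_mem
    · exact at_of_dvd hP' hDP ⟨D₁ * (D₂ * (D₃ * D₄)), by rw [hD]; ring⟩ hD₅i
    · rcases q with i | i
      · have h1 : tt (fun i => v i * Units.mk0 (x i) (hx i).1) (Sum.inl i) = (v i : ℂ) * x i := by
          simp [tt]
        rw [h1]
        exact (loc P hP').mul_mem (mem_loc_of_int hP' (hv i).1) (mem_loc_of_pow hP' hDP (hx i).2.1)
      · have h1 : tt (fun i => v i * Units.mk0 (x i) (hx i).1) (Sum.inr i) =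
            (((v i)⁻¹ : ℂˣ) : ℂ) * (x i)⁻¹ := by
          simp [tt, mul_comm]
        rw [h1]
        exact (loc P hP').mul_mem (mem_loc_of_int hP' (hv i).2.1)
          (mem_loc_of_pow hP' hDP (hx i).2.2)

end Vale.Agent.P002.R2.H955
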