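import Vale.Agent.P002.H2.YG
import Vale.Agent.P002.R2.H426.Defs

/-!
# Points which are integral at one maximal ideal (helper955 for P002)

A variety over the algebraic numbers with one point `P₀` has a Zariski dense set of points `P` with
`P - P₀` integral. So if `P₀` is integral at a maximal ideal, then the points which are integral
at this ideal are dense.
-/

namespace Vale.Agent.P002.R2.H955

open Matrix Module NumberField Vale.Agent.P002R.Orb Vale.Agent.P002.H326J Vale.Agent.P002.H252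
  Vale.Agent.P002.H2

/-- points at an integral distance of a given point -/
theorem dense_translate {σ : Type} [Finite σ] (p : Ideal (MvPolynomial σ Kb))
    [hp : p.IsPrime] (P0 : σ → Kb) (hp0 : ∀ g ∈ p, MvPolynomial.eval P0 g = 0) :
    ∀ f ∉ p, ∃ P : σ → Kb, (∀ i, IsIntegral ℤ (P i - P0 i)) ∧
      (∀ g ∈ p, MvPolynomial.eval P g = 0) ∧ MvPolynomial.eval P f ≠ 0 := by
  obtain ⟨τ, hτ⟩ : ∃ τ : MvPolynomial σ Kb →ₐ[Kb] MvPolynomial σ Kb,
      τ = MvPolynomial.aeval (fun i => MvPolynomial.X i - MvPolynomial.C (P0 i)) := ⟨_, rfl⟩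
  obtain ⟨τ', hτ'⟩ : ∃ τ' : MvPolynomial σ Kb →ₐ[Kb] MvPolynomial σ Kb,
      τ' = MvPolynomial.aeval (fun i => MvPolynomial.X i + MvPolynomial.C (P0 i)) := ⟨_, rfl⟩
  have hττ' : ∀ g, τ (τ' g) = g := by
    intro g
    have h1 : τ.comp τ' = AlgHom.id Kb _ := by
      apply MvPolynomial.algHom_ext
      intro o
      have hC : ∀ x : Kb, τ (MvPolynomial.C x) = MvPolynomial.C x := fun x => τ.commutes x
      rw [AlgHom.comp_apply, hτ', MvPolynomial.aeval_X, map_add, hC, hτ, MvPolynomial.aeval_X,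
        sub_add_cancel]
      rfl
    exact congrArg (fun φ => φ g) h1
  have hevτ : ∀ (Q : σ → Kb) (g : MvPolynomial σ Kb),
      MvPolynomial.eval Q (τ g) = MvPolynomial.eval (fun i => Q i - P0 i) g := by
    intro Q g
    have h1 : (MvPolynomial.aeval Q : MvPolynomial σ Kb →ₐ[Kb] Kb).comp τ =
        MvPolynomial.aeval (fun i => Q i - P0 i) := by
      apply MvPolynomial.algHom_ext
      intro o
      rw [AlgHom.comp_apply, hτ, MvPolynomial.aeval_X, MvPolynomial.aeval_X, map_sub,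
        MvPolynomial.aeval_X, MvPolynomial.aeval_C]
      rfl
    exact congrArg (fun φ => φ g) h1
  have hevτ' : ∀ (Q : σ → Kb) (g : MvPolynomial σ Kb),
      MvPolynomial.eval Q (τ' g) = MvPolynomial.eval (fun i => Q i + P0 i) g := by
    intro Q g
    have h1 : (MvPolynomial.aeval Q : MvPolynomial σ Kb →ₐ[Kb] Kb).comp τ' =
        MvPolynomial.aeval (fun i => Q i + P0 i) := by
      apply MvPolynomial.algHom_ext
      intro o
      rw [AlgHom.comp_apply, hτ', MvPolynomial.aeval_X, MvPolynomial.aeval_X, map_add,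
        MvPolynomial.aeval_X, MvPolynomial.aeval_C]
      rfl
    exact congrArg (fun φ => φ g) h1
  have hq : (p.comap τ).IsPrime := Ideal.comap_isPrime _ _
  obtain ⟨d, hd⟩ := dense_int (p.comap τ) (fun _ => 0) (fun _ => isIntegral_zero) (fun g hg => by
    have h1 := hp0 _ (Ideal.mem_comap.1 hg)
    rw [hevτ] at h1
    simpa using h1)
  intro f hf
  obtain ⟨Q, hQ, -, hQp, hQf⟩ := hd (τ' f) (fun h => hf (by
    have h1 := Ideal.mem_comap.1 h
    rwa [hττ'] at h1))
  refine ⟨fun i => Q i + P0 i, fun i => ?_, fun g hg => ?_, ?_⟩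
  · change IsIntegral ℤ (Q i + P0 i - P0 i)
    rw [add_sub_cancel_right]
    exact hQ i
  · have h1 := hQp (τ' g) (Ideal.mem_comap.2 (by rwa [hττ']))
    rwa [hevτ'] at h1
  · rwa [hevτ'] at hQf

theorem isIntegralAt_add_of_integral {P : Ideal (integralClosure ℤ ℂ)} {z w : ℂ}
    (hz : IsIntegralAt P z) (hw : IsIntegral ℤ w) : IsIntegralAt P (w + z) := by
  obtain ⟨b, hb, hbz⟩ := hz
  refine ⟨b, hb, ?_⟩
  rw [mul_add]
  exact (b.2.mul hw).add hbz

variable {ι : Type} {r : ℕ}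

/-- (M4) Points integral at a maximal ideal are dense, if there is one. -/
theorem local_points [Finite ι] {Z : Set (ι → SpecialLinearGroup (Fin r) ℂ)} (hZ : IsIrredSet Z)
    (P : Ideal (integralClosure ℤ ℂ)) (_hP : P.IsMaximal)
    (X₁ : ι → SpecialLinearGroup (Fin r) ℂ)
    (h1 : ∀ p i j, IsIntegralAt P ((X₁ p).1 i j))
    (h1Z : ∀ F ∈ idK Z, value F X₁ = 0) :
    ∀ f, f ∉ idK Z → ∃ Q : ι → SpecialLinearGroup (Fin r) ℂ,
      (∀ F ∈ idK Z, value F Q = 0) ∧ value f Q ≠ 0 ∧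
      (∀ p i j, (Q p).1 i j ∈ algebraicClosure ℚ ℂ) ∧
      ∀ p i j, IsIntegralAt P ((Q p).1 i j) := by
  have hp := idK_prime hZ
  have halg : ∀ p i j, (X₁ p).1 i j ∈ algebraicClosure ℚ ℂ := by
    intro p i j
    obtain ⟨b, hb, hbz⟩ := h1 p i j
    have hb0 : (b : ℂ) ≠ 0 := by
      intro h
      apply hb
      have h2 : b = 0 := Subtype.ext h
      rw [h2]
      exact P.zero_mem
    rw [mem_algebraicClosure_iff]
    have h2 : IsAlgebraic ℚ ((b : ℂ) * (X₁ p).1 i j) :=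
      ((hbz.tower_top : IsIntegral ℚ _)).isAlgebraic
    have h3 : IsAlgebraic ℚ (b : ℂ) := ((b.2.tower_top : IsIntegral ℚ _)).isAlgebraic
    have h4 : (X₁ p).1 i j = (b : ℂ)⁻¹ * ((b : ℂ) * (X₁ p).1 i j) := by
      rw [← mul_assoc, inv_mul_cancel₀ hb0, one_mul]
    rw [h4]
    exact h3.inv.mul h2
  obtain ⟨P0, hP0⟩ : ∃ P0 : ι × Fin r × Fin r → Kb, ∀ q, (P0 q : ℂ) = (X₁ q.1).1 q.2.1 q.2.2 :=
    ⟨fun q => ⟨_, halg q.1 q.2.1 q.2.2⟩, fun q => rfl⟩
  have hev : ∀ (P : ι × Fin r × Fin r → Kb) (X : ι → SpecialLinearGroup (Fin r) ℂ),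
      (∀ q, (P q : ℂ) = (X q.1).1 q.2.1 q.2.2) →
      ∀ F : MvPolynomial (ι × Fin r × Fin r) Kb, ((MvPolynomial.eval P F : Kb) : ℂ) = value F X := by
    intro P X hPX F
    have h1 : (algebraMap Kb ℂ) (MvPolynomial.eval₂ (RingHom.id Kb) P F) =
        MvPolynomial.eval₂ ((algebraMap Kb ℂ).comp (RingHom.id Kb)) ((algebraMap Kb ℂ) ∘ P) F :=
      MvPolynomial.eval₂_comp_left _ _ _ _
    have h2 : (algebraMap Kb ℂ) ∘ P = H252.coords X := funext fun q => hPX q
    rw [h2] at h1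
    exact h1
  intro f hf
  obtain ⟨T, hTi, hTp, hTf⟩ := dense_translate (idK Z) P0 (fun g hg => by
    have h1 := hev P0 X₁ hP0 g
    rw [h1Z g hg] at h1
    exact Subtype.ext h1) f hf
  -- the matrices
  have hdet : ∀ p, (Matrix.of fun i j => (T (p, i, j) : ℂ)).det = 1 := by
    intro p
    obtain ⟨D, hD⟩ : ∃ D : MvPolynomial (ι × Fin r × Fin r) Kb,
        D = (Matrix.of fun i j => (MvPolynomial.X (p, i, j) :
          MvPolynomial (ι × Fin r × Fin r) Kb)).det - 1 := ⟨_, rfl⟩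
    have h1 : D ∈ idK Z := by
      intro X _
      have h2 : (evK X).mapMatrix (Matrix.of fun i j => (MvPolynomial.X (p, i, j) :
          MvPolynomial (ι × Fin r × Fin r) Kb)) = (X p).1 := by
        ext a b
        simp only [RingHom.mapMatrix_apply, Matrix.map_apply, Matrix.of_apply, evK,
          MvPolynomial.eval₂Hom_X']
        rfl
      rw [value_evK, hD, map_sub, map_one, RingHom.map_det, h2, (X p).2, sub_self]
    have h2 := hTp D h1
    rw [hD, map_sub, map_one, RingHom.map_det, sub_eq_zero] at h2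
    have h3 := congrArg (algebraMap Kb ℂ) h2
    rw [RingHom.map_det, map_one] at h3
    have h4 : (algebraMap Kb ℂ).mapMatrix ((MvPolynomial.eval T).mapMatrix (Matrix.of fun i j =>
        (MvPolynomial.X (p, i, j) : MvPolynomial (ι × Fin r × Fin r) Kb))) =
        Matrix.of fun i j => (T (p, i, j) : ℂ) := by
      ext a b
      simp only [RingHom.mapMatrix_apply, Matrix.map_apply, Matrix.of_apply, MvPolynomial.eval_X]
      rfl
    rwa [h4] at h3
  obtain ⟨Q, hQ⟩ : ∃ Q : ι → SpecialLinearGroup (Fin r) ℂ, ∀ q, (T q : ℂ) = (Q q.1).1 q.2.1 q.2.2 :=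
    ⟨fun p => ⟨_, hdet p⟩, fun q => rfl⟩
  refine ⟨Q, fun F hF => ?_, ?_, fun p i j => ?_, fun p i j => ?_⟩
  · rw [← hev T Q hQ, hTp F hF]
    rfl
  · rw [← hev T Q hQ]
    intro h
    exact hTf (Subtype.ext h)
  · rw [← hQ (p, i, j)]
    exact (T (p, i, j)).2
  · have h2 : IsIntegral ℤ ((T (p, i, j) - P0 (p, i, j) : Kb) : ℂ) :=
      (hTi (p, i, j)).map (IsScalarTower.toAlgHom ℤ Kb ℂ)
    have h3 := isIntegralAt_add_of_integral (h1 p i j) h2
    have h4 : ((T (p, i, j) - P0 (p, i, j) : Kb) : ℂ) + (X₁ p).1 i j = (Q p).1 i j := by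
      rw [← hQ (p, i, j), ← hP0 (p, i, j)]
      push_cast
      ring
    rwa [h4] at h3

end Vale.Agent.P002.R2.H955
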