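import Mathlib

/-!
# Units near a given algebraic number (helper955 for P002)

`Zb` is the ring of all algebraic integers in `ℂ`.

* `exists_bezout`: two algebraic integers have a greatest common divisor which is a combination
  of them (finiteness of the class number and extraction of roots).
* `exists_unit_near`: an algebraic integer prime to `M` is congruent to a unit modulo `M`.
* `exists_coprime_part`: an algebraic integer is the product of a divisor of a power of `D` and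
  of an algebraic integer prime to `D`.
* `exists_near`: a nonzero algebraic number is close, at all places above `D`, to a number which
  is a unit outside `D`.
-/

namespace Vale.Agent.P002.R2.H955

open Polynomial

/-- The ring of all algebraic integers in `ℂ`. -/
abbrev Zb := integralClosure ℤ ℂ

theorem exists_pow_sub_pow (x m : Zb) (hm : m ≠ 0) :
    ∃ i p : ℕ, 0 < p ∧ m ∣ x ^ i * (x ^ p - 1) := by
  classical
  have hfg : (Algebra.adjoin ℤ ({x, m} : Set Zb)).toSubmodule.FG :=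
    fg_adjoin_of_finite (by simp) (fun y _ => Algebra.IsIntegral.isIntegral y)
  let A : Subalgebra ℤ Zb := Algebra.adjoin ℤ {x, m}
  have : Module.Finite ℤ A := Module.Finite.iff_fg.mpr hfg
  have : Module.Free ℤ A := Module.free_of_finite_type_torsion_free'
  let m' : A := ⟨m, Algebra.subset_adjoin (by simp)⟩
  let x' : A := ⟨x, Algebra.subset_adjoin (by simp)⟩
  have hm' : Ideal.span {m'} ≠ ⊥ := by
    rw [Ne, Ideal.span_singleton_eq_bot]
    intro h
    exact hm (congrArg Subtype.val h)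
  have : Finite (A ⧸ Ideal.span {m'}) := Ideal.finiteQuotientOfFreeOfNeBot _ hm'
  obtain ⟨i, j, hij, h⟩ := Finite.exists_ne_map_eq_of_infinite
    (fun n : ℕ => Ideal.Quotient.mk (Ideal.span {m'}) (x' ^ n))
  have key : ∀ i j : ℕ, i < j → Ideal.Quotient.mk (Ideal.span {m'}) (x' ^ j) =
      Ideal.Quotient.mk (Ideal.span {m'}) (x' ^ i) →
      ∃ i p : ℕ, 0 < p ∧ m ∣ x ^ i * (x ^ p - 1) := by
    intro i j hij h
    rw [Ideal.Quotient.eq, Ideal.mem_span_singleton] at h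
    obtain ⟨c, hc⟩ := h
    refine ⟨i, j - i, by omega, (c : Zb), ?_⟩
    have h1 : x ^ j - x ^ i = m * (c : Zb) := congrArg Subtype.val hc
    rw [← h1, mul_sub, ← pow_add, mul_one]
    congr 2
    omega
  rcases Nat.lt_or_gt_of_ne hij with hlt | hgt
  · exact key i j hlt h.symm
  · exact key j i hgt h

theorem exists_root_monic (n : ℕ) (a b : Zb) : ∃ y : Zb, y ^ (n + 2) + a * y ^ (n + 1) + b = 0 := by
  let Q : Zb[X] := X ^ (n + 2) + (C a * X ^ (n + 1) + C b)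
  have hdeg : (C a * X ^ (n + 1) + C b : Zb[X]).degree < ((n + 2 : ℕ) : WithBot ℕ) := by
    refine lt_of_le_of_lt (degree_add_le _ _) (max_lt ?_ ?_)
    · refine lt_of_le_of_lt (degree_C_mul_X_pow_le _ _) ?_
      exact_mod_cast Nat.lt_succ_self _
    · refine lt_of_le_of_lt degree_C_le ?_
      exact_mod_cast Nat.succ_pos _
  have hQ : Q.Monic := monic_X_pow_add hdeg
  have hQd : Q.degree = ((n + 2 : ℕ) : WithBot ℕ) := by
    have h1 : (C a * X ^ (n + 1) + C b : Zb[X]).degree < (X ^ (n + 2) : Zb[X]).degree := by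
      rwa [degree_X_pow]
    rw [show Q = X ^ (n + 2) + (C a * X ^ (n + 1) + C b) from rfl,
      degree_add_eq_left_of_degree_lt h1, degree_X_pow]
  obtain ⟨y, hy⟩ := IsAlgClosed.exists_root (Q.map (algebraMap Zb ℂ)) (by
    rw [hQ.degree_map, hQd]
    intro h
    have h' : n + 2 = 0 := by exact_mod_cast h
    omega)
  have hy' : aeval y Q = 0 := by
    rw [aeval_def, ← eval_map]
    exact hy
  have hyi : IsIntegral Zb y := ⟨Q, hQ, hy'⟩
  have hyz : IsIntegral ℤ y := isIntegral_trans y hyi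
  refine ⟨⟨y, hyz⟩, ?_⟩
  apply Subtype.ext
  have h2 : y ^ (n + 2) + (a : ℂ) * y ^ (n + 1) + (b : ℂ) = 0 := by
    have h3 : aeval y Q = y ^ (n + 2) + ((a : ℂ) * y ^ (n + 1) + (b : ℂ)) := by
      simp [Q, aeval_def]
    rw [h3] at hy'
    linear_combination hy'
  exact h2

/-- (U), bundled form. -/
theorem exists_unit_near_Zb (τ : Zb) (M : ℕ) (hM : 0 < M) (hc : IsCoprime τ (M : Zb)) :
    ∃ x y : Zb, IsUnit x ∧ x = τ + M * y := by
  have hM0 : (M : Zb) ≠ 0 := by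
    intro h
    have : ((M : Zb) : ℂ) = 0 := by rw [h]; rfl
    have h2 : (M : ℂ) = 0 := by exact_mod_cast this
    exact hM.ne' (by exact_mod_cast h2)
  obtain ⟨i, p, hp, hdvd⟩ := exists_pow_sub_pow τ (M : Zb) hM0
  have hcop : IsCoprime (M : Zb) (τ ^ i) := hc.symm.pow_right
  have h1 : (M : Zb) ∣ τ ^ p - 1 := hcop.dvd_of_dvd_mul_left hdvd
  obtain ⟨n, hn⟩ : ∃ n : ℕ, 2 * p = n + 2 := ⟨2 * p - 2, by omega⟩
  have h2 : (M : Zb) ∣ τ ^ (n + 2) - 1 := by
    refine h1.trans ?_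
    rw [← hn, mul_comm, pow_mul]
    have := sub_dvd_pow_sub_pow (τ ^ p) 1 2
    rwa [one_pow] at this
  obtain ⟨ρ, hρ⟩ := h2
  -- `τ^(n+2) = 1 + M ρ`
  have hcop2 : IsCoprime ((-τ) ^ (n + 1)) ((M : Zb) ^ (n + 1)) := (hc.neg_left).pow
  obtain ⟨r1, r0, hr⟩ := hcop2
  set s : Zb := (-1) ^ (n + 2) with hs
  set q1 : Zb := -s * ρ * r1 with hq1
  set q0 : Zb := -s * ρ * r0 with hq0
  have hq : q1 * (-τ) ^ (n + 1) + q0 * (M : Zb) ^ (n + 1) = -s * ρ := by
    rw [hq1, hq0]; linear_combination (-s * ρ) * hr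
  obtain ⟨y, hy⟩ := exists_root_monic n q1 q0
  refine ⟨τ + M * y, y, ?_, rfl⟩
  set x : Zb := τ + M * y with hx
  -- `P(X) = (X - τ)^(n+2) + q1 M (X - τ)^(n+1) + q0 M^(n+2)`
  have hPx : (x - τ) ^ (n + 2) + q1 * M * (x - τ) ^ (n + 1) + q0 * M ^ (n + 2) = 0 := by
    have : x - τ = M * y := by rw [hx]; ring
    rw [this, mul_pow, mul_pow]
    linear_combination (M : Zb) ^ (n + 2) * hy
  have hneg : (-τ) ^ (n + 2) = s * τ ^ (n + 2) := by rw [hs, ← mul_pow]; ring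
  have hP0 : (0 - τ) ^ (n + 2) + q1 * M * (0 - τ) ^ (n + 1) + q0 * M ^ (n + 2) = s := by
    rw [zero_sub, hneg]
    linear_combination s * hρ + (M : Zb) * hq
  have hd : x ∣ s := by
    have e1 : x - 0 ∣ (x - τ) ^ (n + 2) - (0 - τ) ^ (n + 2) := by
      have := sub_dvd_pow_sub_pow (x - τ) (0 - τ) (n + 2)
      have e : (x - τ) - (0 - τ) = x - 0 := by ring
      rwa [e] at this
    have e2 : x - 0 ∣ (x - τ) ^ (n + 1) - (0 - τ) ^ (n + 1) := by
      have := sub_dvd_pow_sub_pow (x - τ) (0 - τ) (n + 1)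
      have e : (x - τ) - (0 - τ) = x - 0 := by ring
      rwa [e] at this
    rw [sub_zero] at e1 e2
    obtain ⟨c1, hc1⟩ := e1
    obtain ⟨c2, hc2⟩ := e2
    refine ⟨-(c1 + q1 * M * c2), ?_⟩
    linear_combination (-1 : Zb) * hP0 + hPx - hc1 - q1 * M * hc2
  refine isUnit_of_dvd_unit hd ?_
  rw [hs]
  exact (isUnit_one.neg).pow _

/-- The ring of all algebraic integers is a Bezout domain: a greatest common divisor of two
elements exists and is a combination of the two elements. -/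
theorem exists_bezout (α β : Zb) (h0 : α ≠ 0) :
    ∃ u α' β' p q : Zb, u ≠ 0 ∧ α = u * α' ∧ β = u * β' ∧ p * α' + q * β' = 1 := by
  classical
  let K : IntermediateField ℚ ℂ := IntermediateField.adjoin ℚ {(α : ℂ), (β : ℂ)}
  have hfin : FiniteDimensional ℚ K := by
    refine IntermediateField.finiteDimensional_adjoin ?_
    intro x hx
    rcases hx with rfl | hx
    · exact α.2.tower_top
    · rw [Set.mem_singleton_iff] at hx
      rw [hx]; exact β.2.tower_top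
  have hK : NumberField K := ⟨⟩
  let φ0 : K →+* ℂ := algebraMap K ℂ
  have hφint : ∀ z : NumberField.RingOfIntegers K, IsIntegral ℤ (φ0 (z : K)) := by
    intro z
    have := z.isIntegral_coe
    exact this.map (IsScalarTower.toAlgHom ℤ K ℂ)
  let φ : NumberField.RingOfIntegers K →+* Zb :=
    { toFun := fun z => ⟨φ0 (z : K), hφint z⟩
      map_one' := by apply Subtype.ext; simp
      map_mul' := by intro x y; apply Subtype.ext; simp
      map_zero' := by apply Subtype.ext; simp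
      map_add' := by intro x y; apply Subtype.ext; simp }
  have hφ : ∀ z, ((φ z : Zb) : ℂ) = φ0 (z : K) := fun z => rfl
  have hmemα : (α : ℂ) ∈ K := IntermediateField.subset_adjoin _ _ (by simp)
  have hmemβ : (β : ℂ) ∈ K := IntermediateField.subset_adjoin _ _ (by simp)
  have hint : ∀ (z : ℂ) (hz : z ∈ K), IsIntegral ℤ z → IsIntegral ℤ (⟨z, hz⟩ : K) := by
    intro z hz h
    exact (isIntegral_algebraMap_iff (FaithfulSMul.algebraMap_injective K ℂ)).mp
      (by simpa using h)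
  let a : NumberField.RingOfIntegers K := ⟨⟨(α : ℂ), hmemα⟩, hint _ _ α.2⟩
  let b : NumberField.RingOfIntegers K := ⟨⟨(β : ℂ), hmemβ⟩, hint _ _ β.2⟩
  have hφa : φ a = α := Subtype.ext rfl
  have hφb : φ b = β := Subtype.ext rfl
  have ha0 : a ≠ 0 := by
    intro h
    apply h0
    rw [← hφa, h, map_zero]
  let J : Ideal (NumberField.RingOfIntegers K) := Ideal.span {a, b}
  have hJ0 : J ≠ ⊥ := by
    intro h
    have : a ∈ J := Ideal.subset_span (by simp)
    rw [h] at this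
    exact ha0 this
  have hJm : J ∈ nonZeroDivisors (Ideal (NumberField.RingOfIntegers K)) :=
    mem_nonZeroDivisors_of_ne_zero hJ0
  let h : ℕ := Fintype.card (ClassGroup (NumberField.RingOfIntegers K))
  have hh : 0 < h := Fintype.card_pos
  have hJh : Submodule.IsPrincipal (J ^ h) := by
    have hmem : J ^ h ∈ nonZeroDivisors (Ideal (NumberField.RingOfIntegers K)) :=
      pow_mem hJm h
    rw [← ClassGroup.mk0_eq_one_iff hmem]
    have e : (⟨J ^ h, hmem⟩ : nonZeroDivisors (Ideal (NumberField.RingOfIntegers K))) =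
        ⟨J, hJm⟩ ^ h := rfl
    rw [e, map_pow]
    exact pow_card_eq_one
  obtain ⟨γ, hγ⟩ := hJh.principal
  have hγ' : J ^ h = Ideal.span {γ} := hγ
  have hahJ : a ^ h ∈ Ideal.span {γ} := by
    rw [← hγ']; exact Ideal.pow_mem_pow (Ideal.subset_span (by simp)) h
  have hbhJ : b ^ h ∈ Ideal.span {γ} := by
    rw [← hγ']; exact Ideal.pow_mem_pow (Ideal.subset_span (by simp)) h
  obtain ⟨a1, ha1⟩ := Ideal.mem_span_singleton.mp hahJ
  obtain ⟨b1, hb1⟩ := Ideal.mem_span_singleton.mp hbhJ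
  have hγ0 : γ ≠ 0 := by
    intro h
    rw [h, zero_mul] at ha1
    exact ha0 (pow_eq_zero_iff hh.ne' |>.mp ha1)
  obtain ⟨u, hu⟩ := IsAlgClosed.exists_pow_nat_eq (φ γ : ℂ) hh
  have hφγ0 : (φ γ : ℂ) ≠ 0 := by
    rw [hφ]
    intro h
    apply hγ0
    have h2 : (γ : K) = 0 := (map_eq_zero φ0).mp h
    exact NumberField.RingOfIntegers.coe_eq_zero_iff.mp h2
  have hu0 : u ≠ 0 := by
    rintro rfl
    rw [zero_pow hh.ne'] at hu
    exact hφγ0 hu.symm
  have hui : IsIntegral ℤ u := IsIntegral.of_pow hh (hu ▸ (φ γ).2)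
  have ha1' : (α : ℂ) ^ h = (φ γ : ℂ) * (φ a1 : ℂ) := by
    have := congrArg (fun z => ((φ z : Zb) : ℂ)) ha1
    simp only [map_pow, map_mul, hφa] at this
    exact_mod_cast this
  have hb1' : (β : ℂ) ^ h = (φ γ : ℂ) * (φ b1 : ℂ) := by
    have := congrArg (fun z => ((φ z : Zb) : ℂ)) hb1
    simp only [map_pow, map_mul, hφb] at this
    exact_mod_cast this
  have hαi : IsIntegral ℤ ((α : ℂ) / u) := by
    refine IsIntegral.of_pow hh ?_
    rw [div_pow, hu, ha1', mul_div_cancel_left₀ _ hφγ0]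
    exact (φ a1).2
  have hβi : IsIntegral ℤ ((β : ℂ) / u) := by
    refine IsIntegral.of_pow hh ?_
    rw [div_pow, hu, hb1', mul_div_cancel_left₀ _ hφγ0]
    exact (φ b1).2
  let uZ : Zb := ⟨u, hui⟩
  let α' : Zb := ⟨(α : ℂ) / u, hαi⟩
  let β' : Zb := ⟨(β : ℂ) / u, hβi⟩
  have hαe : α = uZ * α' := by
    apply Subtype.ext
    change (α : ℂ) = u * ((α : ℂ) / u)
    rw [mul_div_cancel₀ _ hu0]
  have hβe : β = uZ * β' := by
    apply Subtype.ext
    change (β : ℂ) = u * ((β : ℂ) / u)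
    rw [mul_div_cancel₀ _ hu0]
  have huh : uZ ^ h = φ γ := by
    apply Subtype.ext
    change u ^ h = (φ γ : ℂ)
    exact hu
  have hmap : Ideal.map φ (J ^ h) = Ideal.span {uZ ^ h} * (Ideal.span {α', β'}) ^ h := by
    rw [Ideal.map_pow, Ideal.map_span, Set.image_pair, hφa, hφb, ← Ideal.span_singleton_pow,
      ← mul_pow]
    congr 1
    rw [Ideal.span_mul_span']
    congr 1
    ext z
    constructor
    · rintro (rfl | rfl)
      · exact Set.mem_mul.mpr ⟨uZ, rfl, α', by simp, hαe.symm⟩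
      · exact Set.mem_mul.mpr ⟨uZ, rfl, β', by simp, hβe.symm⟩
    · intro hz
      obtain ⟨x, hx, y, hy, rfl⟩ := Set.mem_mul.mp hz
      rw [Set.mem_singleton_iff] at hx
      subst hx
      rcases hy with rfl | rfl
      · left; exact hαe.symm
      · right; exact hβe.symm
  have hmem : uZ ^ h ∈ Ideal.span {uZ ^ h} * (Ideal.span {α', β'}) ^ h := by
    rw [← hmap, huh, hγ']
    exact Ideal.mem_map_of_mem φ (Ideal.mem_span_singleton_self γ)
  obtain ⟨z, hz, hz1⟩ := Ideal.mem_span_singleton_mul.mp hmem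
  have huZ0 : uZ ≠ 0 := by
    intro h
    exact hu0 (congrArg Subtype.val h)
  have hz2 : z = 1 := by
    have : uZ ^ h * z = uZ ^ h * 1 := by rw [hz1, mul_one]
    exact mul_left_cancel₀ (pow_ne_zero _ huZ0) this
  have h1 : (1 : Zb) ∈ Ideal.span {α', β'} := Ideal.pow_le_self hh.ne' (hz2 ▸ hz)
  obtain ⟨p, q, hpq⟩ := Ideal.mem_span_pair.mp h1
  exact ⟨uZ, α', β', p, q, huZ0, hαe, hβe, hpq⟩

/-- (G), bundled form. -/
theorem exists_coprime_part_Zb (α : Zb) (h0 : α ≠ 0) (D : ℕ) :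
    ∃ (u α' u' : Zb) (k : ℕ), α = u * α' ∧ u * u' = (D : Zb) ^ k ∧ IsCoprime α' (D : Zb) := by
  obtain ⟨i, p, hp, hdvd⟩ := exists_pow_sub_pow (D : Zb) α h0
  set k : ℕ := p * (i + 1) with hk
  have hik : i ≤ k := by
    rw [hk]; nlinarith
  have hk0 : 0 < k := by positivity
  have hdvd2 : α ∣ (D : Zb) ^ k * ((D : Zb) ^ k - 1) := by
    refine hdvd.trans (mul_dvd_mul (pow_dvd_pow _ hik) ?_)
    rw [hk, pow_mul]
    have := sub_dvd_pow_sub_pow ((D : Zb) ^ p) 1 (i + 1)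
    rwa [one_pow] at this
  obtain ⟨u, α', u', a, b, hu0, h1, h2, h3⟩ := exists_bezout α ((D : Zb) ^ k) h0
  refine ⟨u, α', u', k, h1, h2.symm, ?_⟩
  have h4 : α' ∣ u' * ((D : Zb) ^ k - 1) := by
    obtain ⟨c, hc⟩ := hdvd2
    refine ⟨c, mul_left_cancel₀ hu0 ?_⟩
    rw [← mul_assoc, ← mul_assoc, ← h1, ← h2]
    exact hc
  have hcop : IsCoprime α' u' := ⟨a, b, h3⟩
  have h5 : α' ∣ (D : Zb) ^ k - 1 := hcop.dvd_of_dvd_mul_left h4
  obtain ⟨c, hc⟩ := h5
  refine ⟨-c, (D : Zb) ^ (k - 1), ?_⟩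
  have h6 : (D : Zb) ^ (k - 1) * (D : Zb) = (D : Zb) ^ k := by
    rw [← pow_succ]; congr 1; omega
  rw [h6]
  linear_combination hc

/-- (U) -/
theorem exists_unit_near (τ : ℂ) (hτ : IsIntegral ℤ τ) (M : ℕ) (hM : 0 < M)
    (hc : ∃ u v : ℂ, IsIntegral ℤ u ∧ IsIntegral ℤ v ∧ u * τ + v * M = 1) :
    ∃ x y : ℂ, IsIntegral ℤ x ∧ IsIntegral ℤ x⁻¹ ∧ x ≠ 0 ∧ IsIntegral ℤ y ∧ x = τ + M * y := by
  obtain ⟨u, v, hu, hv, huv⟩ := hc
  obtain ⟨x, y, hx, hxy⟩ := exists_unit_near_Zb ⟨τ, hτ⟩ M hM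
    ⟨⟨u, hu⟩, ⟨v, hv⟩, Subtype.ext (by simpa using huv)⟩
  obtain ⟨x', hx'⟩ := hx.exists_right_inv
  have h1 : (x : ℂ) * (x' : ℂ) = 1 := congrArg Subtype.val hx'
  have hx0 : (x : ℂ) ≠ 0 := left_ne_zero_of_mul_eq_one h1
  refine ⟨x, y, x.2, ?_, hx0, y.2, ?_⟩
  · rw [inv_eq_of_mul_eq_one_right h1]
    exact x'.2
  · have := congrArg Subtype.val hxy
    simpa using this

/-- (G) -/
theorem exists_coprime_part (α : ℂ) (hα : IsIntegral ℤ α) (h0 : α ≠ 0) (D : ℕ) (_hD : 0 < D) :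
    ∃ (u α' u' : ℂ) (k : ℕ), IsIntegral ℤ u ∧ IsIntegral ℤ α' ∧ IsIntegral ℤ u' ∧ α = u * α' ∧
      u * u' = (D : ℂ) ^ k ∧ ∃ v w : ℂ, IsIntegral ℤ v ∧ IsIntegral ℤ w ∧ v * α' + w * D = 1 := by
  obtain ⟨u, α', u', k, h1, h2, v, w, h3⟩ := exists_coprime_part_Zb ⟨α, hα⟩
    (fun h => h0 (congrArg Subtype.val h)) D
  refine ⟨u, α', u', k, u.2, α'.2, u'.2, congrArg Subtype.val h1, ?_, v, w, v.2, w.2, ?_⟩
  · have := congrArg Subtype.val h2
    simpa using this
  · have := congrArg Subtype.val h3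
    simpa using this

/-- (S) -/
theorem exists_near (b : ℂ) (hb : IsAlgebraic ℚ b) (h0 : b ≠ 0) (D : ℕ) (hD : 0 < D) (m : ℕ) :
    ∃ (x a : ℂ) (k : ℕ), x ≠ 0 ∧ IsIntegral ℤ ((D : ℂ) ^ k * x) ∧
      IsIntegral ℤ ((D : ℂ) ^ k * x⁻¹) ∧ IsIntegral ℤ a ∧
      (∃ u v : ℂ, IsIntegral ℤ u ∧ IsIntegral ℤ v ∧ u * a + v * D = 1) ∧
      IsIntegral ℤ (a * (x / b - 1) / (D : ℂ) ^ m) ∧
      IsIntegral ℤ (a * (b / x - 1) / (D : ℂ) ^ m) := by
  have hD0 : (D : ℂ) ≠ 0 := by exact_mod_cast hD.ne'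
  have hbZ : IsAlgebraic ℤ b := (IsFractionRing.isAlgebraic_iff ℤ ℚ ℂ).mpr hb
  obtain ⟨α, β, hβ0, hαβ⟩ : ∃ (α : Zb) (β : ℤ), β ≠ 0 ∧ (β : ℂ) * b = α := by
    obtain ⟨y, hy, h⟩ := hbZ.exists_integral_multiple
    exact ⟨⟨y • b, h⟩, y, hy, by simp⟩
  have hβc : (β : ℂ) ≠ 0 := by exact_mod_cast hβ0
  have hβZ0 : (β : Zb) ≠ 0 := by exact_mod_cast hβ0
  have hα0 : α ≠ 0 := by
    intro h
    rw [h] at hαβ
    exact mul_ne_zero hβc h0 hαβ
  obtain ⟨u1, α1, v1, k1, hα1, hu1, hc1⟩ := exists_coprime_part_Zb α hα0 D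
  obtain ⟨u2, β1, v2, k2, hβ1, hu2, hc2⟩ := exists_coprime_part_Zb (β : Zb) hβZ0 D
  -- inverse of `β1` modulo `D^m`
  obtain ⟨β2, w, hw⟩ := (hc2.pow_right (n := m))
  have hβ2 : IsCoprime β2 (D : Zb) ∨ m = 0 := by
    rcases Nat.eq_zero_or_pos m with hm | hm
    · right; exact hm
    · left
      refine ⟨β1, w * (D : Zb) ^ (m - 1), ?_⟩
      have h6 : (D : Zb) ^ (m - 1) * (D : Zb) = (D : Zb) ^ m := by
        rw [← pow_succ]; congr 1; omega
      rw [mul_assoc, h6]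
      linear_combination hw
  have hτ : IsCoprime (α1 * β2) (((D ^ m : ℕ)) : Zb) := by
    rw [Nat.cast_pow]
    rcases hβ2 with h | h
    · exact (hc1.mul_left h).pow_right
    · rw [h, pow_zero]; exact isCoprime_one_right
  obtain ⟨x', y, hx'u, hx'⟩ := exists_unit_near_Zb (α1 * β2) (D ^ m) (by positivity) hτ
  rw [Nat.cast_pow] at hx'
  obtain ⟨x'', hx''⟩ := hx'u.exists_right_inv
  -- transfer to `ℂ`
  have e1 : (α : ℂ) = u1 * α1 := by exact_mod_cast congrArg Subtype.val hα1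
  have e2 : (β : ℂ) = u2 * β1 := by
    have := congrArg Subtype.val hβ1
    push_cast at this
    exact this
  have e3 : (u1 : ℂ) * v1 = (D : ℂ) ^ k1 := by
    have := congrArg Subtype.val hu1
    push_cast at this
    exact this
  have e4 : (u2 : ℂ) * v2 = (D : ℂ) ^ k2 := by
    have := congrArg Subtype.val hu2
    push_cast at this
    exact this
  have e5 : (x' : ℂ) = α1 * β2 + (D : ℂ) ^ m * y := by
    have := congrArg Subtype.val hx'
    push_cast at this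
    exact this
  have e6 : (x' : ℂ) * x'' = 1 := by
    have := congrArg Subtype.val hx''
    push_cast at this
    exact this
  have e7 : (β2 : ℂ) * β1 + w * (D : ℂ) ^ m = 1 := by
    have := congrArg Subtype.val hw
    push_cast at this
    exact this
  have hu10 : (u1 : ℂ) ≠ 0 := left_ne_zero_of_mul (by rw [e3]; exact pow_ne_zero _ hD0)
  have hu20 : (u2 : ℂ) ≠ 0 := left_ne_zero_of_mul (by rw [e4]; exact pow_ne_zero _ hD0)
  have hα10 : (α1 : ℂ) ≠ 0 := by
    intro h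
    rw [h, mul_zero] at e1
    exact hα0 (Subtype.ext e1)
  have hβ10 : (β1 : ℂ) ≠ 0 := by
    intro h
    rw [h, mul_zero] at e2
    exact hβc e2
  have hx'0 : (x' : ℂ) ≠ 0 := left_ne_zero_of_mul_eq_one e6
  have hbe : b = (u1 * α1) / (u2 * β1) := by
    rw [← e1, ← e2, ← hαβ, mul_div_cancel_left₀ _ hβc]
  have hDm : (D : ℂ) ^ m ≠ 0 := pow_ne_zero _ hD0
  obtain ⟨p, q, hpq⟩ := hc1.mul_left hc2
  refine ⟨x' * u1 / u2, α1 * β1, k1 + k2, ?_, ?_, ?_, ?_, ?_, ?_, ?_⟩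
  · exact div_ne_zero (mul_ne_zero hx'0 hu10) hu20
  · have : (D : ℂ) ^ (k1 + k2) * ((x' : ℂ) * u1 / u2) = ((D : Zb) ^ k1 * x' * u1 * v2 : Zb) := by
      push_cast
      rw [pow_add, ← e4]
      field_simp
    rw [this]
    exact Subtype.property _
  · have : (D : ℂ) ^ (k1 + k2) * ((x' : ℂ) * u1 / u2)⁻¹ = ((D : Zb) ^ k2 * x'' * u2 * v1 : Zb) := by
      push_cast
      have hx''e : (x'' : ℂ) = (x' : ℂ)⁻¹ := by
        rw [eq_comm]; exact inv_eq_of_mul_eq_one_right e6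
      rw [pow_add, ← e3, hx''e]
      field_simp
    rw [this]
    exact Subtype.property _
  · exact (α1 * β1).2
  · refine ⟨p, q, p.2, q.2, ?_⟩
    have := congrArg Subtype.val hpq
    push_cast at this
    exact this
  · have : (α1 : ℂ) * β1 * ((x' : ℂ) * u1 / u2 / b - 1) / (D : ℂ) ^ m =
        (β1 * (y * β1 - α1 * w) : Zb) := by
      push_cast
      rw [div_eq_iff hDm, hbe]
      have h7 : (α1 : ℂ) * β1 * (x' * u1 / u2 / (u1 * α1 / (u2 * β1)) - 1) =
          β1 * (x' * β1 - α1) := by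
        field_simp
      rw [h7, e5]
      linear_combination (β1 : ℂ) * α1 * e7
    rw [this]
    exact Subtype.property _
  · have : (α1 : ℂ) * β1 * (b / ((x' : ℂ) * u1 / u2) - 1) / (D : ℂ) ^ m =
        (α1 * x'' * (α1 * w - y * β1) : Zb) := by
      push_cast
      rw [div_eq_iff hDm, hbe]
      have hx''e : (x'' : ℂ) = (x' : ℂ)⁻¹ := by
        rw [eq_comm]; exact inv_eq_of_mul_eq_one_right e6
      have h7 : (α1 : ℂ) * β1 * ((u1 * α1 / (u2 * β1)) / (x' * u1 / u2) - 1) =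
          α1 * (x' : ℂ)⁻¹ * (α1 - x' * β1) := by
        field_simp
      rw [h7, hx''e, e5]
      linear_combination (-(α1 : ℂ)) * (α1 * β2 + (D : ℂ) ^ m * y)⁻¹ * α1 * e7
    rw [this]
    exact Subtype.property _

end Vale.Agent.P002.R2.H955
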