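import Vale.Agent.P002.R2.H955.Pert
import Vale.Agent.P002.R2.H524.Glob

/-!
# P002: Laurent polynomials over subrings of the complex numbers, lemmas
-/

namespace Vale.Agent.P002.R2.H955

open Matrix Finset Vale.Agent.P002.R2.H426 Vale.Agent.P002.H2 Vale.Agent.P002.R2
  Vale.Agent.P002.R2.H524

variable {n : ℕ}

/-- clearing the denominators of a Laurent polynomial -/
theorem clear_den {A : Type} [CommRing A] [Algebra A ℂ] (p : MvPolynomial (Fin n ⊕ Fin n) A) :
    ∃ (a : ℕ) (f : MvPolynomial (Fin n) A), ∀ t : Fin n → ℂˣ,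
      (∏ i, (t i : ℂ)) ^ a * MvPolynomial.aeval (tt t) p =
        MvPolynomial.aeval (fun i => (t i : ℂ)) f := by
  induction p using MvPolynomial.induction_on with
  | C c =>
    refine ⟨0, MvPolynomial.C c, fun t => ?_⟩
    rw [pow_zero, one_mul, MvPolynomial.aeval_C, MvPolynomial.aeval_C]
  | add p q hp hq =>
    obtain ⟨a, f, hf⟩ := hp
    obtain ⟨b, g, hg⟩ := hq
    refine ⟨a + b, (∏ i, MvPolynomial.X i) ^ b * f + (∏ i, MvPolynomial.X i) ^ a * g,
      fun t => ?_⟩
    rw [map_add, map_add, map_mul, map_mul, map_pow, map_pow, map_prod]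
    simp only [MvPolynomial.aeval_X]
    rw [← hf, ← hg]
    ring
  | mul_X p k hp =>
    obtain ⟨a, f, hf⟩ := hp
    rcases k with i | i
    · refine ⟨a, f * MvPolynomial.X i, fun t => ?_⟩
      rw [map_mul, map_mul, ← hf, MvPolynomial.aeval_X, MvPolynomial.aeval_X]
      change _ * (_ * (t i : ℂ)) = _
      ring
    · refine ⟨a + 1, f * ∏ j ∈ univ.erase i, MvPolynomial.X j, fun t => ?_⟩
      rw [map_mul, map_mul, ← hf, MvPolynomial.aeval_X, map_prod]
      simp only [MvPolynomial.aeval_X]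
      change _ * (_ * (((t i)⁻¹ : ℂˣ) : ℂ)) = _
      rw [pow_succ, ← Finset.mul_prod_erase univ (fun i => (t i : ℂ)) (Finset.mem_univ i),
        Units.val_inv_eq_inv_val]
      have h0 := (t i).ne_zero
      field_simp

/-- a polynomial with coefficients in a subring -/
theorem exists_sub {σ : Type} (O : Subring ℂ) (p : MvPolynomial σ Kb)
    (hp : ∀ m, ((p.coeff m : Kb) : ℂ) ∈ O) :
    ∃ q : MvPolynomial σ O, ∀ x : σ → ℂ, MvPolynomial.aeval x q = MvPolynomial.aeval x p := by
  have h1 : MvPolynomial.map (algebraMap Kb ℂ) p ∈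
      Set.range (MvPolynomial.map (σ := σ) (algebraMap O ℂ)) := by
    rw [MvPolynomial.mem_range_map_iff_coeffs_subset]
    intro z hz
    rw [Finset.mem_coe, MvPolynomial.mem_coeffs_iff] at hz
    obtain ⟨m, hm, rfl⟩ := hz
    rw [MvPolynomial.coeff_map]
    exact ⟨⟨_, hp m⟩, rfl⟩
  obtain ⟨q, hq⟩ := h1
  refine ⟨q, fun x => ?_⟩
  rw [MvPolynomial.aeval_def, MvPolynomial.eval₂_eq_eval_map, MvPolynomial.aeval_def,
    MvPolynomial.eval₂_eq_eval_map]
  exact congrArg _ hq

/-- the difference of the values at two close points -/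
theorem eval_diff {O : Subring ℂ} {c : ℂ} (hc : c ∈ O) (p : MvPolynomial (Fin n ⊕ Fin n) ℂ)
    (t ρ : Fin n → ℂˣ) (hρ : ∀ k, tt ρ k ∈ nr O c hc) (b : ℂ)
    (hb : ∀ m ∈ p.support, b * (p.coeff m * ∏ k, tt t k ^ m k) ∈ O) :
    ∃ o ∈ O, b * (MvPolynomial.eval (tt fun i => ρ i * t i) p - MvPolynomial.eval (tt t) p) =
      c * o := by
  have h1 : ∀ m : Fin n ⊕ Fin n →₀ ℕ, ∏ k, tt ρ k ^ m k ∈ nr O c hc := fun m =>
    Submonoid.prod_mem _ fun k _ => Submonoid.pow_mem _ (hρ k) _
  choose o ho h2 using h1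
  refine ⟨∑ m ∈ p.support, b * (p.coeff m * ∏ k, tt t k ^ m k) * o m,
    O.sum_mem fun m hm => O.mul_mem (hb m hm) (ho m), ?_⟩
  rw [MvPolynomial.eval_eq', MvPolynomial.eval_eq', ← Finset.sum_sub_distrib, Finset.mul_sum,
    Finset.mul_sum]
  refine Finset.sum_congr rfl fun m _ => ?_
  have h4 : ∏ k, tt (fun i => ρ i * t i) k ^ m k =
      (∏ k, tt ρ k ^ m k) * ∏ k, tt t k ^ m k := by
    rw [← Finset.prod_mul_distrib]
    exact Finset.prod_congr rfl fun k _ => by rw [tt_mul, mul_pow]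
  rw [h4, h2 m]
  ring

/-- two polynomials which agree at the points of the torus with `h ≠ 0` are equal -/
theorem eq_of_torus {f g h : MvPolynomial (Fin n) ℂ} (h0 : h ≠ 0)
    (hfg : ∀ t : Fin n → ℂˣ, MvPolynomial.eval (fun i => (t i : ℂ)) h ≠ 0 →
      MvPolynomial.eval (fun i => (t i : ℂ)) f = MvPolynomial.eval (fun i => (t i : ℂ)) g) :
    f = g := by
  have h1 : (f - g) * (h * ∏ i, MvPolynomial.X i) = 0 := by
    apply MvPolynomial.funext
    intro x
    rw [map_mul, map_mul, map_prod, map_zero]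
    simp only [MvPolynomial.eval_X]
    by_cases hx : ∏ i, x i = 0
    · rw [hx, mul_zero, mul_zero]
    · by_cases hxh : MvPolynomial.eval x h = 0
      · rw [hxh, zero_mul, mul_zero]
      · have hx' : ∀ i, x i ≠ 0 := fun i => (Finset.prod_ne_zero_iff.1 hx) i (Finset.mem_univ i)
        have h2 := hfg (fun i => Units.mk0 (x i) (hx' i)) hxh
        change MvPolynomial.eval x f = MvPolynomial.eval x g at h2
        rw [map_sub, h2, sub_self, zero_mul]
  have h2 : h * ∏ i, MvPolynomial.X i ≠ 0 :=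
    mul_ne_zero h0 (Finset.prod_ne_zero_iff.2 fun i _ => MvPolynomial.X_ne_zero i)
  exact sub_eq_zero.1 ((mul_eq_zero.1 h1).resolve_right h2)

variable {P : Ideal (integralClosure ℤ ℂ)}

/-- Gauss for powers -/
theorem gauss_pow (hP : P.IsPrime) {σ : Type*} {f g : MvPolynomial σ ℂ}
    (hf : ∀ m, IsAlgebraic ℚ (f.coeff m)) (k : ℕ)
    (hfg : ∀ m, IsIntegralAt P ((f * g ^ k).coeff m))
    (hg : ∀ m, IsIntegralAt P (g.coeff m))
    (hc : ∃ m, g.coeff m ≠ 0 ∧ IsIntegralAt P (g.coeff m)⁻¹) (m : σ →₀ ℕ) :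
    IsIntegralAt P (f.coeff m) := by
  classical
  induction k with
  | zero =>
    rw [pow_zero, mul_one] at hfg
    exact hfg m
  | succ k ih =>
    refine ih fun m => ?_
    refine gauss hP (g := g) (fun m => ?_) (fun m => ?_) hg hc m
    · rw [← mem_algebraicClosure_iff, MvPolynomial.coeff_mul]
      refine sum_mem fun x _ => mul_mem (mem_algebraicClosure_iff.2 (hf _)) ?_
      have h1 : ∀ (k : ℕ) (m : σ →₀ ℕ), (g ^ k).coeff m ∈ algebraicClosure ℚ ℂ := by
        intro k
        induction k with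
        | zero =>
          intro m
          rw [pow_zero, MvPolynomial.coeff_one]
          split_ifs
          · exact one_mem _
          · exact zero_mem _
        | succ k ih =>
          intro m
          rw [pow_succ, MvPolynomial.coeff_mul]
          exact sum_mem fun x _ => mul_mem (ih _) (mem_algebraicClosure_iff.2 (alg_at (hg _)))
      exact h1 _ _
    · rw [mul_assoc, ← pow_succ]
      exact hfg m

theorem at_of_dvd (hP : P.IsPrime) {D D' : ℕ} (hDP : (D : integralClosure ℤ ℂ) ∉ P)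
    (hdvd : D' ∣ D) {z : ℂ} (hz : IsIntegral ℤ ((D' : ℂ) * z)) : IsIntegralAt P z := by
  obtain ⟨e, rfl⟩ := hdvd
  refine mem_loc_of_pow hP hDP (k := 1) ?_
  rw [pow_one]
  push_cast
  have h2 : (D' : ℂ) * e * z = e * (D' * z) := by ring
  rw [h2]
  exact (natInt e).mul hz

end Vale.Agent.P002.R2.H955
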