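import Vale.Agent.P002.R2.H524.Glob
import Vale.Agent.P002.R2.H955.Near1
import Vale.Agent.P002.H252.Tr5

/-!
# Localizations of the ring of algebraic integers and number fields (helper955 for P002)

* `loc_field`: an element of a number field `E` which is integral at `P` has a denominator outside
  of `P` in `E`.
* `lattice`: the lattice over the local ring spanned by `P`-integral vectors with entries in a
  number field has a basis.
* `conj_of_bounded`: a representation with bounded denominators at `P` is conjugate to a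
  `P`-integral one.
-/

namespace Vale.Agent.P002.R2.H955

open Matrix Polynomial Vale.Agent.P002.R2.H524

/-- The greatest common divisor of two elements of a number field has a power in this field. -/
theorem exists_bezout_pow (α β : Zb) (h0 : α ≠ 0) (K : IntermediateField ℚ ℂ)
    (hK0 : FiniteDimensional ℚ K) (hmemα : (α : ℂ) ∈ K) (hmemβ : (β : ℂ) ∈ K) :
    ∃ (u α' β' p q : Zb) (h : ℕ), 0 < h ∧ u ≠ 0 ∧ α = u * α' ∧ β = u * β' ∧
      p * α' + q * β' = 1 ∧ (u : ℂ) ^ h ∈ K := by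
  classical
  have hK : NumberField K := ⟨⟩
  let φ0 : K →+* ℂ := algebraMap K ℂ
  have hφint : ∀ z : NumberField.RingOfIntegers K, IsIntegral ℤ (φ0 (z : K)) := by
    intro z
    have := z.isIntegral_coe
    exact this.map (IsScalarTower.toAlgHom ℤ K ℂ)
  let φ : NumberField.RingOfIntegers K →+* Zb :=
    { toFun := fun z => ⟨φ0 (z : K), hφint z⟩
      map_one' := by apply Subtype.ext; simp
      map_mul' := by intro x y; apply Subtype.ext; simp
      map_zero' := by apply Subtype.ext; simp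
      map_add' := by intro x y; apply Subtype.ext; simp }
  have hφ : ∀ z, ((φ z : Zb) : ℂ) = φ0 (z : K) := fun z => rfl
  have hint : ∀ (z : ℂ) (hz : z ∈ K), IsIntegral ℤ z → IsIntegral ℤ (⟨z, hz⟩ : K) := by
    intro z hz h
    exact (isIntegral_algebraMap_iff (FaithfulSMul.algebraMap_injective K ℂ)).mp
      (by simpa using h)
  let a : NumberField.RingOfIntegers K := ⟨⟨(α : ℂ), hmemα⟩, hint _ _ α.2⟩
  let b : NumberField.RingOfIntegers K := ⟨⟨(β : ℂ), hmemβ⟩, hint _ _ β.2⟩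
  have hφa : φ a = α := Subtype.ext rfl
  have hφb : φ b = β := Subtype.ext rfl
  have ha0 : a ≠ 0 := by
    intro h
    apply h0
    rw [← hφa, h, map_zero]
  let J : Ideal (NumberField.RingOfIntegers K) := Ideal.span {a, b}
  have hJ0 : J ≠ ⊥ := by
    intro h
    have : a ∈ J := Ideal.subset_span (by simp)
    rw [h] at this
    exact ha0 this
  have hJm : J ∈ nonZeroDivisors (Ideal (NumberField.RingOfIntegers K)) :=
    mem_nonZeroDivisors_of_ne_zero hJ0
  let h : ℕ := Fintype.card (ClassGroup (NumberField.RingOfIntegers K))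
  have hh : 0 < h := Fintype.card_pos
  have hJh : Submodule.IsPrincipal (J ^ h) := by
    have hmem : J ^ h ∈ nonZeroDivisors (Ideal (NumberField.RingOfIntegers K)) :=
      pow_mem hJm h
    rw [← ClassGroup.mk0_eq_one_iff hmem]
    have e : (⟨J ^ h, hmem⟩ : nonZeroDivisors (Ideal (NumberField.RingOfIntegers K))) =
        ⟨J, hJm⟩ ^ h := rfl
    rw [e, map_pow]
    exact pow_card_eq_one
  obtain ⟨γ, hγ⟩ := hJh.principal
  have hγ' : J ^ h = Ideal.span {γ} := hγ
  have hahJ : a ^ h ∈ Ideal.span {γ} := by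
    rw [← hγ']; exact Ideal.pow_mem_pow (Ideal.subset_span (by simp)) h
  have hbhJ : b ^ h ∈ Ideal.span {γ} := by
    rw [← hγ']; exact Ideal.pow_mem_pow (Ideal.subset_span (by simp)) h
  obtain ⟨a1, ha1⟩ := Ideal.mem_span_singleton.mp hahJ
  obtain ⟨b1, hb1⟩ := Ideal.mem_span_singleton.mp hbhJ
  have hγ0 : γ ≠ 0 := by
    intro h
    rw [h, zero_mul] at ha1
    exact ha0 (pow_eq_zero_iff hh.ne' |>.mp ha1)
  obtain ⟨u, hu⟩ := IsAlgClosed.exists_pow_nat_eq (φ γ : ℂ) hh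
  have hφγ0 : (φ γ : ℂ) ≠ 0 := by
    rw [hφ]
    intro h
    apply hγ0
    have h2 : (γ : K) = 0 := (map_eq_zero φ0).mp h
    exact NumberField.RingOfIntegers.coe_eq_zero_iff.mp h2
  have hu0 : u ≠ 0 := by
    rintro rfl
    rw [zero_pow hh.ne'] at hu
    exact hφγ0 hu.symm
  have hui : IsIntegral ℤ u := IsIntegral.of_pow hh (hu ▸ (φ γ).2)
  have ha1' : (α : ℂ) ^ h = (φ γ : ℂ) * (φ a1 : ℂ) := by
    have := congrArg (fun z => ((φ z : Zb) : ℂ)) ha1
    simp only [map_pow, map_mul, hφa] at this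
    exact_mod_cast this
  have hb1' : (β : ℂ) ^ h = (φ γ : ℂ) * (φ b1 : ℂ) := by
    have := congrArg (fun z => ((φ z : Zb) : ℂ)) hb1
    simp only [map_pow, map_mul, hφb] at this
    exact_mod_cast this
  have hαi : IsIntegral ℤ ((α : ℂ) / u) := by
    refine IsIntegral.of_pow hh ?_
    rw [div_pow, hu, ha1', mul_div_cancel_left₀ _ hφγ0]
    exact (φ a1).2
  have hβi : IsIntegral ℤ ((β : ℂ) / u) := by
    refine IsIntegral.of_pow hh ?_
    rw [div_pow, hu, hb1', mul_div_cancel_left₀ _ hφγ0]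
    exact (φ b1).2
  let uZ : Zb := ⟨u, hui⟩
  let α' : Zb := ⟨(α : ℂ) / u, hαi⟩
  let β' : Zb := ⟨(β : ℂ) / u, hβi⟩
  have hαe : α = uZ * α' := by
    apply Subtype.ext
    change (α : ℂ) = u * ((α : ℂ) / u)
    rw [mul_div_cancel₀ _ hu0]
  have hβe : β = uZ * β' := by
    apply Subtype.ext
    change (β : ℂ) = u * ((β : ℂ) / u)
    rw [mul_div_cancel₀ _ hu0]
  have huh : uZ ^ h = φ γ := by
    apply Subtype.ext
    change u ^ h = (φ γ : ℂ)
    exact hu
  have hmap : Ideal.map φ (J ^ h) = Ideal.span {uZ ^ h} * (Ideal.span {α', β'}) ^ h := by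
    rw [Ideal.map_pow, Ideal.map_span, Set.image_pair, hφa, hφb, ← Ideal.span_singleton_pow,
      ← mul_pow]
    congr 1
    rw [Ideal.span_mul_span']
    congr 1
    ext z
    constructor
    · rintro (rfl | rfl)
      · exact Set.mem_mul.mpr ⟨uZ, rfl, α', by simp, hαe.symm⟩
      · exact Set.mem_mul.mpr ⟨uZ, rfl, β', by simp, hβe.symm⟩
    · intro hz
      obtain ⟨x, hx, y, hy, rfl⟩ := Set.mem_mul.mp hz
      rw [Set.mem_singleton_iff] at hx
      subst hx
      rcases hy with rfl | rfl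
      · left; exact hαe.symm
      · right; exact hβe.symm
  have hmem : uZ ^ h ∈ Ideal.span {uZ ^ h} * (Ideal.span {α', β'}) ^ h := by
    rw [← hmap, huh, hγ']
    exact Ideal.mem_map_of_mem φ (Ideal.mem_span_singleton_self γ)
  obtain ⟨z, hz, hz1⟩ := Ideal.mem_span_singleton_mul.mp hmem
  have huZ0 : uZ ≠ 0 := by
    intro h
    exact hu0 (congrArg Subtype.val h)
  have hz2 : z = 1 := by
    have : uZ ^ h * z = uZ ^ h * 1 := by rw [hz1, mul_one]
    exact mul_left_cancel₀ (pow_ne_zero _ huZ0) this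
  have h1 : (1 : Zb) ∈ Ideal.span {α', β'} := Ideal.pow_le_self hh.ne' (hz2 ▸ hz)
  obtain ⟨p, q, hpq⟩ := Ideal.mem_span_pair.mp h1
  refine ⟨uZ, α', β', p, q, h, hh, huZ0, hαe, hβe, hpq, ?_⟩
  change u ^ h ∈ K
  rw [hu, hφ]
  exact (γ : K).2

/-- An element of a number field which is integral at `P` has a denominator outside of `P` in the
number field. -/
theorem loc_field {P : Ideal (integralClosure ℤ ℂ)} (hP : P.IsPrime) (E : IntermediateField ℚ ℂ)
    (hE : FiniteDimensional ℚ E) {z : ℂ} (hz : z ∈ E) (h : IsIntegralAt P z) :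
    ∃ y : Zb, y ∉ P ∧ (y : ℂ) ∈ E ∧ IsIntegral ℤ ((y : ℂ) * z) := by
  have hzQ : IsAlgebraic ℚ z := by
    have h1 : Algebra.IsIntegral ℚ E := Algebra.IsIntegral.of_finite ℚ E
    have h3 := h1.isIntegral (⟨z, hz⟩ : E)
    exact (h3.map (E.val.restrictScalars ℚ)).isAlgebraic
  have hzZ : IsAlgebraic ℤ z := (IsFractionRing.isAlgebraic_iff ℤ ℚ ℂ).mpr hzQ
  obtain ⟨n, hn, hnz⟩ := hzZ.exists_integral_multiple
  rw [zsmul_eq_mul] at hnz
  have hnc : (n : ℂ) ≠ 0 := by exact_mod_cast hn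
  obtain ⟨α, hα⟩ : ∃ α : Zb, (α : ℂ) = n := ⟨(n : Zb), by simp⟩
  obtain ⟨β, hβ⟩ : ∃ β : Zb, (β : ℂ) = n * z := ⟨⟨_, hnz⟩, rfl⟩
  have hα0 : α ≠ 0 := by
    rintro rfl
    exact hnc hα.symm
  obtain ⟨u, α', β', p, q, k, hk, hu0, e1, e2, e3, huE⟩ := exists_bezout_pow α β hα0 E hE
    (by rw [hα]; exact intCast_mem E n) (by rw [hβ]; exact E.mul_mem (intCast_mem E n) hz)
  have hu0' : (u : ℂ) ≠ 0 := fun h => hu0 (Subtype.ext h)
  have f1 : (n : ℂ) = u * α' := by rw [← hα, e1]; rfl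
  have f2 : (n : ℂ) * z = u * β' := by rw [← hβ, e2]; rfl
  have hα'0 : (α' : ℂ) ≠ 0 := right_ne_zero_of_mul (by rw [← f1]; exact hnc)
  have f3 : (α' : ℂ) * z = β' := by
    apply mul_left_cancel₀ hu0'
    rw [← f2, f1]
    ring
  obtain ⟨b, hb, hbz⟩ := h
  have hα'P : α' ∉ P := by
    intro hmem
    apply hb
    have h1 : b * β' = α' * ⟨_, hbz⟩ := by
      apply Subtype.ext
      change (b : ℂ) * (β' : ℂ) = (α' : ℂ) * ((b : ℂ) * z)
      rw [← f3]
      ring
    have h2 : b = α' * (p * b + q * ⟨_, hbz⟩) := by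
      linear_combination (-b) * e3 + q * h1
    rw [h2]
    exact P.mul_mem_right _ hmem
  refine ⟨α' ^ k, fun h => hα'P (hP.mem_of_pow_mem k h), ?_, ?_⟩
  · have h1 : ((α' ^ k : Zb) : ℂ) = (n : ℂ) ^ k / (u : ℂ) ^ k := by
      rw [f1, mul_pow, mul_div_cancel_left₀ _ (pow_ne_zero _ hu0')]
      rfl
    rw [h1]
    exact E.div_mem (pow_mem (intCast_mem E n) k) huE
  · obtain ⟨m, rfl⟩ : ∃ m, k = m + 1 := ⟨k - 1, by omega⟩
    have h1 : ((α' ^ (m + 1) : Zb) : ℂ) * z = ((α' ^ m * β' : Zb) : ℂ) := by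
      rw [pow_succ]
      push_cast
      rw [mul_assoc, f3]
    rw [h1]
    exact Subtype.property _

/-- The lattice over the local ring spanned by `P`-integral vectors with entries in a number
field has a basis, the columns of a matrix `T`. -/
theorem lattice {P : Ideal (integralClosure ℤ ℂ)} (hP : P.IsPrime) (E : IntermediateField ℚ ℂ)
    (hE : FiniteDimensional ℚ E) {r : ℕ} {J : Type*} (z : J → Fin r → ℂ)
    (hzE : ∀ j i, z j i ∈ E) (hzP : ∀ j i, IsIntegralAt P (z j i)) :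
    ∃ T : Matrix (Fin r) (Fin r) ℂ,
      (∀ j, ∃ v : Fin r → ℂ, (∀ i, IsIntegralAt P (v i)) ∧ T *ᵥ v = z j) ∧
      ∀ k, ∃ (s : Finset J) (c : J → ℂ), (∀ j, IsIntegralAt P (c j)) ∧
        T.col k = ∑ j ∈ s, c j • z j := by
  classical
  -- common denominators in the number field
  have h1 : ∀ j, ∃ y : Zb, y ∉ P ∧ (y : ℂ) ∈ E ∧ ∀ i, IsIntegral ℤ ((y : ℂ) * z j i) := by
    intro j
    choose y hy hyE hyz using fun i => loc_field hP E hE (hzE j i) (hzP j i)
    refine ⟨∏ i, y i, fun h => ?_, ?_, fun i => ?_⟩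
    · obtain ⟨i, -, hi⟩ := (hP.prod_mem_iff).1 h
      exact hy i hi
    · have h2 : ((∏ i, y i : Zb) : ℂ) = ∏ i, (y i : ℂ) := by push_cast; rfl
      rw [h2]
      exact prod_mem fun i _ => hyE i
    · rw [← Finset.mul_prod_erase _ _ (Finset.mem_univ i), MulMemClass.coe_mul]
      have h3 : (y i : ℂ) * ((∏ l ∈ Finset.univ.erase i, y l : Zb) : ℂ) * z j i =
          ((∏ l ∈ Finset.univ.erase i, y l : Zb) : ℂ) * (y i * z j i) := by ring
      rw [h3]
      exact IsIntegral.mul (∏ l ∈ Finset.univ.erase i, y l : Zb).2 (hyz i)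
  choose y hy hyE hyz using h1
  have hy0 : ∀ j, (y j : ℂ) ≠ 0 := by
    intro j h
    apply hy j
    have h2 : y j = 0 := Subtype.ext h
    rw [h2]
    exact P.zero_mem
  obtain ⟨z', hz'⟩ : ∃ z' : J → Fin r → Zb, ∀ j i, (z' j i : ℂ) = y j * z j i :=
    ⟨fun j i => ⟨_, hyz j i⟩, fun _ _ => rfl⟩
  have hfg := H252.fg_of_field z' E hE (fun j i => by
    rw [hz']
    exact E.mul_mem (hyE j) (hzE j i))
  have := H252.bezoutZb
  obtain ⟨P₀, hP₀⟩ := H252.fg_matrix r _ hfg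
  have hmv : ∀ (u : Fin r → Zb) (a : Fin r), ((P₀ *ᵥ u) a : ℂ) =
      ((Matrix.of fun i j => (P₀ i j : ℂ)) *ᵥ fun i => (u i : ℂ)) a := by
    intro u a
    have h1 : ((P₀ *ᵥ u) a : ℂ) = (algebraMap Zb ℂ) (∑ i, P₀ a i * u i) := rfl
    rw [h1, map_sum]
    refine Finset.sum_congr rfl fun i _ => ?_
    rw [map_mul]
    rfl
  refine ⟨Matrix.of fun i j => (P₀ i j : ℂ), fun j => ?_, fun k => ?_⟩
  · obtain ⟨u, hu⟩ := (hP₀ (z' j)).1 (Submodule.subset_span ⟨j, rfl⟩)
    refine ⟨(y j : ℂ)⁻¹ • fun i => (u i : ℂ), fun i => ⟨y j, hy j, ?_⟩, ?_⟩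
    · rw [Pi.smul_apply, smul_eq_mul, ← mul_assoc, mul_inv_cancel₀ (hy0 j), one_mul]
      exact (u i).2
    · funext a
      rw [Matrix.mulVec_smul, Pi.smul_apply, smul_eq_mul, ← hmv, ← hu, hz', ← mul_assoc,
        inv_mul_cancel₀ (hy0 j), one_mul]
  · have hk : (P₀ *ᵥ Pi.single k 1) ∈ Submodule.span Zb (Set.range z') := (hP₀ _).2 ⟨_, rfl⟩
    rw [Finsupp.mem_span_range_iff_exists_finsupp] at hk
    obtain ⟨c, hc⟩ := hk
    refine ⟨c.support, fun j => (c j : ℂ) * y j, fun j => ⟨1, fun h =>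
      hP.ne_top ((Ideal.eq_top_iff_one P).2 h), ?_⟩, ?_⟩
    · rw [OneMemClass.coe_one, one_mul]
      exact IsIntegral.mul (c j).2 (y j).2
    · funext i
      have h2 := congrArg (fun v : Fin r → Zb => (v i : ℂ)) hc
      simp only [Finsupp.sum, Finset.sum_apply, Pi.smul_apply, smul_eq_mul,
        Matrix.mulVec_single_one] at h2
      have h3 : ((∑ j ∈ c.support, c j * z' j i : Zb) : ℂ) =
          ∑ j ∈ c.support, (c j : ℂ) * (z' j i : ℂ) := by push_cast; rfl
      rw [h3] at h2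
      have h4 : (Matrix.of fun i j => (P₀ i j : ℂ)).col k i = (P₀.col k i : ℂ) := rfl
      rw [h4, ← h2, Finset.sum_apply]
      refine Finset.sum_congr rfl fun j _ => ?_
      rw [hz', Pi.smul_apply, smul_eq_mul, mul_assoc]

/-- A representation with bounded denominators at `P` is conjugate to a `P`-integral one. -/
theorem conj_of_bounded {P : Ideal (integralClosure ℤ ℂ)} (hP : P.IsPrime)
    (E : IntermediateField ℚ ℂ) (hE : FiniteDimensional ℚ E) {ι : Type} {r : ℕ}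
    (X : ι → SpecialLinearGroup (Fin r) ℂ) (δ : ℂ) (hδ0 : δ ≠ 0) (hδ : δ ∈ E)
    (hXE : ∀ w i j, (FreeGroup.lift X w).1 i j ∈ E)
    (hXP : ∀ w i j, IsIntegralAt P (δ * (FreeGroup.lift X w).1 i j)) :
    ∃ g : SpecialLinearGroup (Fin r) ℂ, ∀ p i j, IsIntegralAt P ((g * X p * g⁻¹).1 i j) := by
  classical
  rcases Nat.eq_zero_or_pos r with hr | hr
  · subst hr
    exact ⟨1, fun p i => i.elim0⟩
  obtain ⟨T, hT1, hT2⟩ := lattice hP E hE (J := FreeGroup ι × Fin r)
    (fun a i => δ * (FreeGroup.lift X a.1).1 i a.2) (fun a i => E.mul_mem hδ (hXE _ _ _))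
    (fun a i => hXP _ _ _)
  have hTu : IsUnit T := by
    rw [← Matrix.mulVec_surjective_iff_isUnit]
    intro v
    have h1 : ∀ j : Fin r, ∃ x, T *ᵥ x = Pi.single j 1 := by
      intro j
      obtain ⟨x, -, hx⟩ := hT1 (1, j)
      refine ⟨δ⁻¹ • x, ?_⟩
      rw [Matrix.mulVec_smul, hx]
      funext i
      rw [Pi.smul_apply, smul_eq_mul, map_one, ← mul_assoc, inv_mul_cancel₀ hδ0, one_mul]
      change (1 : Matrix (Fin r) (Fin r) ℂ) i j = _
      rw [Matrix.one_apply, Pi.single_apply]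
    choose x hx using h1
    refine ⟨∑ j, v j • x j, ?_⟩
    rw [Matrix.mulVec_sum]
    conv_rhs => rw [← Finset.univ_sum_single v]
    refine Finset.sum_congr rfl fun j _ => ?_
    rw [Matrix.mulVec_smul, hx]
    funext i
    rw [Pi.smul_apply, smul_eq_mul, Pi.single_apply, Pi.single_apply]
    split_ifs with h
    · rw [mul_one]
    · rw [mul_zero]
  have hTd : T.det ≠ 0 := ((Matrix.isUnit_iff_isUnit_det _).1 hTu).ne_zero
  have hTd' : IsUnit T.det := (Matrix.isUnit_iff_isUnit_det _).1 hTu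
  obtain ⟨c, hc⟩ := IsAlgClosed.exists_pow_nat_eq T.det hr
  have hc0 : c ≠ 0 := by
    rintro rfl
    rw [zero_pow hr.ne'] at hc
    exact hTd hc.symm
  obtain ⟨g, hg⟩ : ∃ g : SpecialLinearGroup (Fin r) ℂ, g.1 = c • T⁻¹ := ⟨⟨c • T⁻¹, by
    rw [Matrix.det_smul, Fintype.card_fin, hc, Matrix.det_nonsing_inv, Ring.inverse_eq_inv',
      mul_inv_cancel₀ hTd]⟩, rfl⟩
  obtain ⟨g', hg'⟩ : ∃ g' : SpecialLinearGroup (Fin r) ℂ, g'.1 = c⁻¹ • T := ⟨⟨c⁻¹ • T, by
    rw [Matrix.det_smul, Fintype.card_fin, inv_pow, hc, inv_mul_cancel₀ hTd]⟩, rfl⟩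
  have hgg : g⁻¹ = g' := by
    rw [inv_eq_iff_mul_eq_one]
    apply Subtype.ext
    change g.1 * g'.1 = 1
    rw [hg, hg', Matrix.smul_mul, Matrix.mul_smul, Matrix.nonsing_inv_mul _ hTd', smul_smul,
      mul_inv_cancel₀ hc0, one_smul]
  refine ⟨g, fun p i j => ?_⟩
  have h1 : (g * X p * g⁻¹).1 = T⁻¹ * ((X p).1 * T) := by
    rw [hgg]
    change g.1 * (X p).1 * g'.1 = _
    rw [hg, hg', Matrix.smul_mul, Matrix.smul_mul, Matrix.mul_smul, smul_smul,
      mul_inv_cancel₀ hc0, one_smul, Matrix.mul_assoc]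
  -- the columns
  obtain ⟨s, cc, hcc, hs⟩ := hT2 j
  have h2 : ∃ v : Fin r → ℂ, (∀ i, IsIntegralAt P (v i)) ∧ T *ᵥ v = (X p).1 *ᵥ T.col j := by
    choose v hv hTv using hT1
    refine ⟨∑ a ∈ s, cc a • v (FreeGroup.of p * a.1, a.2), fun i => ?_, ?_⟩
    · rw [Finset.sum_apply]
      refine (loc P hP).sum_mem fun a _ => ?_
      rw [Pi.smul_apply, smul_eq_mul]
      exact (loc P hP).mul_mem (hcc a) (hv _ i)
    · rw [hs, Matrix.mulVec_sum, Matrix.mulVec_sum]
      refine Finset.sum_congr rfl fun a _ => ?_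
      rw [Matrix.mulVec_smul, Matrix.mulVec_smul, hTv]
      congr 1
      funext i
      have h3 : (FreeGroup.lift X (FreeGroup.of p * a.1)).1 =
          (X p).1 * (FreeGroup.lift X a.1).1 := by
        rw [map_mul, FreeGroup.lift_apply_of]
        rfl
      rw [h3, Matrix.mul_apply, Finset.mul_sum, Matrix.mulVec, dotProduct]
      refine Finset.sum_congr rfl fun l _ => ?_
      ring
  obtain ⟨v, hv, hTv⟩ := h2
  have h3 : (T⁻¹ * ((X p).1 * T)) i j = v i := by
    have h4 : (T⁻¹ * ((X p).1 * T)) i j = (T⁻¹ *ᵥ ((X p).1 *ᵥ T.col j)) i := rfl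
    rw [h4, ← hTv, Matrix.mulVec_mulVec, Matrix.nonsing_inv_mul _ hTd', Matrix.one_mulVec]
  rw [h1, h3]
  exact hv i

end Vale.Agent.P002.R2.H955
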