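import Vale.Agent.P002.R2.H524.Val

/-!
# P002: perturbation of representations with integral character

`perturb`: if the traces of a representation `Q` are integral at a maximal ideal `P` and finitely
many traces of `X` are close to those of `Q`, then all the traces of `X` are integral at `P`.
-/

namespace Vale.Agent.P002.R2.H955

open Matrix Finset Vale.Agent.P002.R2 Vale.Agent.P002.R2.H524

variable {P : Ideal (integralClosure ℤ ℂ)}

theorem unit_loc {π : integralClosure ℤ ℂ} (hπ : π ∈ P) {o : ℂ}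
    (ho : IsIntegralAt P o) : 1 + (π : ℂ) * o ≠ 0 ∧ IsIntegralAt P (1 + (π : ℂ) * o)⁻¹ := by
  obtain ⟨b, hb, hbo⟩ := ho
  obtain ⟨y, hy⟩ : ∃ y : integralClosure ℤ ℂ, (y : ℂ) = b * o := ⟨⟨_, hbo⟩, rfl⟩
  have h1 : b + π * y ∉ P := by
    intro h
    apply hb
    have := P.sub_mem h (P.mul_mem_right y hπ)
    rwa [add_sub_cancel_right] at this
  have h2 : ((b + π * y : integralClosure ℤ ℂ) : ℂ) = b * (1 + (π : ℂ) * o) := by
    rw [AddMemClass.coe_add, MulMemClass.coe_mul, hy]
    ring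
  have hne : ((b + π * y : integralClosure ℤ ℂ) : ℂ) ≠ 0 := by
    intro h
    apply h1
    have h3 : b + π * y = 0 := Subtype.ext h
    rw [h3]
    exact P.zero_mem
  have h0 : 1 + (π : ℂ) * o ≠ 0 := by
    intro h
    rw [h, mul_zero] at h2
    exact hne h2
  refine ⟨h0, b + π * y, h1, ?_⟩
  rw [h2, mul_assoc, mul_inv_cancel₀ h0, mul_one]
  exact b.2

/-- the entries of a product over a subring -/
theorem mul_mem_mat {m : Type*} [Fintype m] (O : Subring ℂ) {A B : Matrix m m ℂ}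
    (hA : ∀ i j, A i j ∈ O) (hB : ∀ i j, B i j ∈ O) (i j : m) : (A * B) i j ∈ O := by
  rw [Matrix.mul_apply]
  exact O.sum_mem fun k _ => O.mul_mem (hA i k) (hB k j)

/-- the determinant of a matrix over a subring -/
theorem det_mem_mat {m : Type*} [Fintype m] [DecidableEq m] (O : Subring ℂ) {A : Matrix m m ℂ}
    (hA : ∀ i j, A i j ∈ O) : A.det ∈ O := by
  obtain ⟨A', rfl⟩ : ∃ A' : Matrix m m O, O.subtype.mapMatrix A' = A :=
    ⟨Matrix.of fun i j => ⟨A i j, hA i j⟩, by ext i j; rfl⟩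
  rw [← RingHom.map_det]
  exact SetLike.coe_mem _

theorem adj_mem_mat {m : Type*} [Fintype m] [DecidableEq m] (O : Subring ℂ) {A : Matrix m m ℂ}
    (hA : ∀ i j, A i j ∈ O) (i j : m) : A.adjugate i j ∈ O := by
  obtain ⟨A', rfl⟩ : ∃ A' : Matrix m m O, O.subtype.mapMatrix A' = A :=
    ⟨Matrix.of fun i j => ⟨A i j, hA i j⟩, by ext i j; rfl⟩
  rw [← RingHom.map_adjugate]
  exact SetLike.coe_mem (A'.adjugate i j)

/-- the determinants of two matrices over a subring which are congruent modulo `c` are congruent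
modulo `c` -/
theorem det_cong {m : Type*} [Fintype m] [DecidableEq m] (O : Subring ℂ) {A B : Matrix m m ℂ}
    (hA : ∀ i j, A i j ∈ O) {c : ℂ} (hc : c ∈ O) (h : ∀ i j, ∃ o ∈ O, B i j - A i j = c * o) :
    ∃ o ∈ O, B.det - A.det = c * o := by
  obtain ⟨A', rfl⟩ : ∃ A' : Matrix m m O, O.subtype.mapMatrix A' = A :=
    ⟨Matrix.of fun i j => ⟨A i j, hA i j⟩, by ext i j; rfl⟩
  choose E hE hBE using h
  obtain ⟨c', rfl⟩ : ∃ c' : O, O.subtype c' = c := ⟨⟨c, hc⟩, rfl⟩
  obtain ⟨E', hE'⟩ : ∃ E' : Matrix m m O, O.subtype.mapMatrix E' = Matrix.of E :=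
    ⟨Matrix.of fun i j => ⟨E i j, hE i j⟩, by ext i j; rfl⟩
  have hB : B = O.subtype.mapMatrix (A' + c' • E') := by
    ext i j
    have h1 := hBE i j
    have h2 : E i j = O.subtype (E' i j) := (congrFun (congrFun hE' i) j).symm
    rw [h2] at h1
    have h3 : O.subtype.mapMatrix (A' + c' • E') i j =
        O.subtype.mapMatrix A' i j + O.subtype c' * O.subtype (E' i j) := rfl
    rw [h3, ← h1]
    ring
  rw [hB, ← RingHom.map_det, ← RingHom.map_det, ← map_sub]
  have h4 : ∃ o : O, (A' + c' • E').det - A'.det = c' * o := by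
    have h5 : (Ideal.Quotient.mk (Ideal.span {c'})) ((A' + c' • E').det) =
        (Ideal.Quotient.mk (Ideal.span {c'})) (A'.det) := by
      rw [RingHom.map_det, RingHom.map_det]
      congr 1
      ext i j
      change (Ideal.Quotient.mk (Ideal.span {c'})) (A' i j + c' * E' i j) =
        (Ideal.Quotient.mk (Ideal.span {c'})) (A' i j)
      rw [Ideal.Quotient.mk_eq_mk_iff_sub_mem, add_sub_cancel_left]
      exact Ideal.mul_mem_right _ _ (Ideal.mem_span_singleton_self c')
    rw [Ideal.Quotient.mk_eq_mk_iff_sub_mem, Ideal.mem_span_singleton] at h5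
    exact h5
  obtain ⟨o, ho⟩ := h4
  exact ⟨O.subtype o, SetLike.coe_mem o, by rw [ho, map_mul]⟩

theorem alg_at {z : ℂ} (h : IsIntegralAt P z) : IsAlgebraic ℚ z := by
  obtain ⟨b, hb, hbz⟩ := h
  have hb0 : (b : ℂ) ≠ 0 := by
    intro h
    apply hb
    have h2 : b = 0 := Subtype.ext h
    rw [h2]
    exact P.zero_mem
  have h2 : IsAlgebraic ℚ ((b : ℂ) * z) := ((hbz.tower_top : IsIntegral ℚ _)).isAlgebraic
  have h3 : IsAlgebraic ℚ (b : ℂ) := ((b.2.tower_top : IsIntegral ℚ _)).isAlgebraic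
  have h4 : z = (b : ℂ)⁻¹ * ((b : ℂ) * z) := by
    rw [← mul_assoc, inv_mul_cancel₀ hb0, one_mul]
  rw [h4]
  exact h3.inv.mul h2

/-- Cramer's rule over a subring -/
theorem cramer_mem' (O : Subring ℂ) {m : ℕ} (G : Matrix (Fin m) (Fin m) ℂ)
    (hG : ∀ i j, G i j ∈ O) (x : Fin m → ℂ) (hx : ∀ i, (G *ᵥ x) i ∈ O) (i : Fin m) :
    G.det * x i ∈ O := by
  have h1 : G.adjugate *ᵥ (G *ᵥ x) = G.det • x := by
    rw [Matrix.mulVec_mulVec, Matrix.adjugate_mul, Matrix.smul_mulVec, Matrix.one_mulVec]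
  have h2 := congrFun h1 i
  rw [Pi.smul_apply, smul_eq_mul] at h2
  rw [← h2, Matrix.mulVec, dotProduct]
  exact O.sum_mem fun j _ => O.mul_mem (adj_mem_mat O hG i j) (hx j)

variable {ι : Type} {r m : ℕ}

/-- the matrices of two close representations -/
theorem close_mat (hP : P.IsPrime) {G G' T T' L L' : Matrix (Fin m) (Fin m) ℂ}
    (hG : ∀ i j, IsIntegralAt P (G i j)) (hT : ∀ i j, IsIntegralAt P (T i j))
    (hΔ : G.det ≠ 0) {π : integralClosure ℤ ℂ} (hπ : π ∈ P)
    (hGG : ∀ i j, ∃ o, IsIntegralAt P o ∧ G' i j - G i j = π * G.det ^ 3 * o)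
    (hTT : ∀ i j, ∃ o, IsIntegralAt P o ∧ T' i j - T i j = π * G.det ^ 3 * o)
    (hL : G * L = T) (hL' : G' * L' = T') (i j : Fin m) :
    ∃ o, IsIntegralAt P o ∧ L' i j - L i j = G.det * o := by
  obtain ⟨O, hO⟩ : ∃ O : Subring ℂ, O = loc P hP := ⟨_, rfl⟩
  have mO : ∀ z, IsIntegralAt P z ↔ z ∈ O := fun z => by rw [hO]; exact Iff.rfl
  simp only [mO] at hG hT hGG hTT ⊢
  have hπO : (π : ℂ) ∈ O := by rw [hO]; exact mem_loc_of_int hP π.2
  have hdO : G.det ∈ O := det_mem_mat O hG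
  have hcO : (π : ℂ) * G.det ^ 3 ∈ O := O.mul_mem hπO (O.pow_mem hdO 3)
  have hG' : ∀ i j, G' i j ∈ O := by
    intro i j
    obtain ⟨o, ho, h⟩ := hGG i j
    have : G' i j = G i j + π * G.det ^ 3 * o := by rw [← h]; ring
    rw [this]
    exact O.add_mem (hG i j) (O.mul_mem hcO ho)
  have hT' : ∀ i j, T' i j ∈ O := by
    intro i j
    obtain ⟨o, ho, h⟩ := hTT i j
    have : T' i j = T i j + π * G.det ^ 3 * o := by rw [← h]; ring
    rw [this]
    exact O.add_mem (hT i j) (O.mul_mem hcO ho)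
  obtain ⟨o1, ho1, hdet⟩ := det_cong O hG hcO hGG
  obtain ⟨hu0, huO⟩ := unit_loc hπ (o := G.det ^ 2 * o1)
    ((mO _).2 (O.mul_mem (O.pow_mem hdO 2) ho1))
  rw [mO] at huO
  have hdet' : G'.det = G.det * (1 + (π : ℂ) * (G.det ^ 2 * o1)) := by
    have : G'.det = G.det + π * G.det ^ 3 * o1 := by rw [← hdet]; ring
    rw [this]
    ring
  -- `det G * L'` has entries in `O`
  have hL'O : ∀ i j, (G.det • L') i j ∈ O := by
    intro i j
    have h1 : G'.det • L' = G'.adjugate * T' := by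
      rw [← hL', ← Matrix.mul_assoc, Matrix.adjugate_mul, Matrix.smul_mul, Matrix.one_mul]
    have h2 : (G.det • L') i j = (1 + (π : ℂ) * (G.det ^ 2 * o1))⁻¹ * (G'.det • L') i j := by
      rw [Matrix.smul_apply, Matrix.smul_apply, hdet', smul_eq_mul, smul_eq_mul]
      have key : ∀ U x a : ℂ, U ≠ 0 → a * x = U⁻¹ * (a * U * x) := by
        intro U x a hU
        field_simp
      exact key _ _ _ hu0
    rw [h2, h1]
    exact O.mul_mem huO (mul_mem_mat O (adj_mem_mat O hG') hT' i j)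
  -- `G * (L' - L) = π det G ^ 2 * (entries in O)`
  choose EG hEG hGE using hGG
  choose ET hET hTE using hTT
  have h3 : G * (L' - L) = ((π : ℂ) * G.det ^ 2) •
      (G.det • Matrix.of ET - Matrix.of EG * (G.det • L')) := by
    have e1 : G' - G = ((π : ℂ) * G.det ^ 3) • Matrix.of EG := by
      ext i j
      exact hGE i j
    have e2 : T' - T = ((π : ℂ) * G.det ^ 3) • Matrix.of ET := by
      ext i j
      exact hTE i j
    have e3 : G * (L' - L) = (T' - T) - (G' - G) * L' := by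
      rw [Matrix.mul_sub, hL, Matrix.sub_mul, hL']
      abel
    rw [e3, e1, e2, smul_sub, smul_smul, Matrix.mul_smul, smul_smul, Matrix.smul_mul]
    congr 2 <;> ring
  have h4 : G.det • (L' - L) = ((π : ℂ) * G.det ^ 2) •
      (G.adjugate * (G.det • Matrix.of ET - Matrix.of EG * (G.det • L'))) := by
    rw [← Matrix.mul_smul, ← h3, ← Matrix.mul_assoc, Matrix.adjugate_mul, Matrix.smul_mul,
      Matrix.one_mul]
  obtain ⟨F, hF⟩ : ∃ F, F = G.adjugate * (G.det • Matrix.of ET - Matrix.of EG * (G.det • L')) :=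
    ⟨_, rfl⟩
  have hFO : ∀ i j, F i j ∈ O := by
    rw [hF]
    refine mul_mem_mat O (adj_mem_mat O hG) fun i j => ?_
    rw [Matrix.sub_apply]
    refine O.sub_mem ?_ (mul_mem_mat O (fun i j => hEG i j) hL'O i j)
    rw [Matrix.smul_apply, smul_eq_mul]
    exact O.mul_mem hdO (hET i j)
  rw [← hF] at h4
  refine ⟨π * F i j, O.mul_mem hπO (hFO i j), ?_⟩
  have h5 := congrFun (congrFun h4 i) j
  rw [Matrix.smul_apply, Matrix.smul_apply, smul_eq_mul, smul_eq_mul, Matrix.sub_apply] at h5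
  have h6 : G.det * (L' i j - L i j) = G.det * (G.det * (π * F i j)) := by
    rw [h5]
    ring
  exact mul_left_cancel₀ hΔ h6

/-- the trace form matrix -/
def gm (X : ι → SpecialLinearGroup (Fin r) ℂ) (u : Fin m → FreeGroup ι) (w : FreeGroup ι) :
    Matrix (Fin m) (Fin m) ℂ :=
  Matrix.of fun i j => (FreeGroup.lift X (u i * w * u j)).1.trace

/-- the linear combination of the matrices of `u 0, ..., u (m-1)` -/
def lc (X : ι → SpecialLinearGroup (Fin r) ℂ) (u : Fin m → FreeGroup ι) :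
    (Fin m → ℂ) →ₗ[ℂ] Matrix (Fin r) (Fin r) ℂ :=
  Fintype.linearCombination ℂ fun i => (FreeGroup.lift X (u i)).1

theorem lc_apply (X : ι → SpecialLinearGroup (Fin r) ℂ) (u : Fin m → FreeGroup ι)
    (v : Fin m → ℂ) : lc X u v = ∑ i, v i • (FreeGroup.lift X (u i)).1 := rfl

theorem lc_single (X : ι → SpecialLinearGroup (Fin r) ℂ) (u : Fin m → FreeGroup ι) (j : Fin m) :
    lc X u (Pi.single j 1) = (FreeGroup.lift X (u j)).1 := by
  rw [lc, Fintype.linearCombination_apply_single, one_smul]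

/-- the matrix of the multiplication by `γ` -/
theorem exists_lam (X : ι → SpecialLinearGroup (Fin r) ℂ) (u : Fin m → FreeGroup ι)
    (hX : ∀ w, ∃ c : Fin m → ℂ, (FreeGroup.lift X w).1 = ∑ i, c i • (FreeGroup.lift X (u i)).1)
    (γ : FreeGroup ι) : ∃ L : Matrix (Fin m) (Fin m) ℂ,
      (∀ v, (FreeGroup.lift X γ).1 * lc X u v = lc X u (L *ᵥ v)) ∧
      gm X u 1 * L = gm X u γ := by
  choose c hc using hX
  refine ⟨Matrix.of fun k j => c (γ * u j) k, fun v => ?_, ?_⟩
  · rw [lc_apply, lc_apply, Matrix.mul_sum]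
    have h1 : ∀ j, (FreeGroup.lift X γ).1 * v j • (FreeGroup.lift X (u j)).1 =
        ∑ k, (v j * c (γ * u j) k) • (FreeGroup.lift X (u k)).1 := by
      intro j
      rw [Matrix.mul_smul]
      have h2 : (FreeGroup.lift X γ).1 * (FreeGroup.lift X (u j)).1 =
          (FreeGroup.lift X (γ * u j)).1 := by
        rw [map_mul]
        rfl
      rw [h2, hc (γ * u j), Finset.smul_sum]
      exact Finset.sum_congr rfl fun k _ => by rw [smul_smul]
    rw [Finset.sum_congr rfl fun j _ => h1 j, Finset.sum_comm]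
    refine Finset.sum_congr rfl fun k _ => ?_
    rw [← Finset.sum_smul]
    congr 1
    rw [Matrix.mulVec, dotProduct]
    exact Finset.sum_congr rfl fun j _ => mul_comm _ _
  · ext i j
    rw [Matrix.mul_apply]
    have h2 : (FreeGroup.lift X (u i * γ * u j)).1 =
        (FreeGroup.lift X (u i)).1 * (FreeGroup.lift X (γ * u j)).1 := by
      rw [mul_assoc, map_mul]
      rfl
    change _ = (FreeGroup.lift X (u i * γ * u j)).1.trace
    rw [h2, hc (γ * u j), Matrix.mul_sum, Matrix.trace_sum]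
    refine Finset.sum_congr rfl fun k _ => ?_
    rw [Matrix.mul_smul, Matrix.trace_smul, smul_eq_mul, mul_comm]
    congr 1
    change (FreeGroup.lift X (u i * 1 * u k)).1.trace = _
    rw [mul_one, map_mul]
    rfl

/-- **(F)** perturbation of a representation with `P`-integral character -/
theorem perturb (hP : P.IsPrime) (u : Fin m → FreeGroup ι)
    (Q X : ι → SpecialLinearGroup (Fin r) ℂ)
    (hQt : ∀ w, IsIntegralAt P (FreeGroup.lift Q w).1.trace)
    (hΔ : (gm Q u 1).det ≠ 0)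
    (hQ : ∀ w, ∃ c : Fin m → ℂ, (FreeGroup.lift Q w).1 = ∑ i, c i • (FreeGroup.lift Q (u i)).1)
    (hX : ∀ w, ∃ c : Fin m → ℂ, (FreeGroup.lift X w).1 = ∑ i, c i • (FreeGroup.lift X (u i)).1)
    {π : integralClosure ℤ ℂ} (hπ : π ∈ P)
    (h1 : ∀ i j, ∃ o, IsIntegralAt P o ∧
      gm X u 1 i j - gm Q u 1 i j = π * (gm Q u 1).det ^ 3 * o)
    (h2 : ∀ p i j, ∃ o, IsIntegralAt P o ∧
      gm X u (FreeGroup.of p) i j - gm Q u (FreeGroup.of p) i j = π * (gm Q u 1).det ^ 3 * o)
    (h3 : ∀ p i j, ∃ o, IsIntegralAt P o ∧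
      gm X u (FreeGroup.of p)⁻¹ i j - gm Q u (FreeGroup.of p)⁻¹ i j =
        π * (gm Q u 1).det ^ 3 * o) (w : FreeGroup ι) :
    IsIntegralAt P (FreeGroup.lift X w).1.trace := by
  obtain ⟨Δ, hΔe⟩ : ∃ Δ, Δ = (gm Q u 1).det := ⟨_, rfl⟩
  obtain ⟨O, hO⟩ : ∃ O : Subring ℂ, O = loc P hP := ⟨_, rfl⟩
  have mO : ∀ z, IsIntegralAt P z ↔ z ∈ O := fun z => by rw [hO]; exact Iff.rfl
  have hgQ : ∀ w i j, gm Q u w i j ∈ O := fun w i j => (mO _).1 (hQt _)
  -- the lattice
  let S : Submodule O (Matrix (Fin r) (Fin r) ℂ) :=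
    Submodule.span O (Set.range fun w => (FreeGroup.lift Q w).1)
  let L : Set (Fin m → ℂ) := {v | lc Q u v ∈ S}
  have hLO : ∀ v : Fin m → ℂ, (∀ i, v i ∈ O) → v ∈ L := by
    intro v hv
    change lc Q u v ∈ S
    rw [lc_apply]
    refine S.sum_mem fun i _ => ?_
    exact S.smul_mem (⟨v i, hv i⟩ : O) (Submodule.subset_span ⟨u i, rfl⟩)
  have hLadd : ∀ v ∈ L, ∀ v' ∈ L, v + v' ∈ L := by
    intro v hv v' hv'
    change lc Q u (v + v') ∈ S
    rw [map_add]
    exact S.add_mem hv hv'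
  have hLbd : ∀ v ∈ L, ∀ i, Δ * v i ∈ O := by
    intro v hv i
    rw [hΔe]
    refine cramer_mem' O _ (fun i j => hgQ 1 i j) v (fun i => ?_) i
    have h4 : ∀ M ∈ S, ((FreeGroup.lift Q (u i)).1 * M).trace ∈ O := by
      intro M hM
      induction hM using Submodule.span_induction with
      | mem x hx =>
        obtain ⟨w, rfl⟩ := hx
        have h5 : (FreeGroup.lift Q (u i)).1 * (FreeGroup.lift Q w).1 =
            (FreeGroup.lift Q (u i * w)).1 := by
          rw [map_mul]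
          rfl
        change ((FreeGroup.lift Q (u i)).1 * (FreeGroup.lift Q w).1).trace ∈ O
        rw [h5]
        exact (mO _).1 (hQt _)
      | zero => rw [Matrix.mul_zero, Matrix.trace_zero]; exact O.zero_mem
      | add x y _ _ hx hy =>
        rw [Matrix.mul_add, Matrix.trace_add]
        exact O.add_mem hx hy
      | smul a x _ hx =>
        have h6 : (FreeGroup.lift Q (u i)).1 * a • x = (a : ℂ) • ((FreeGroup.lift Q (u i)).1 * x) := by
          rw [← Matrix.mul_smul]
          rfl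
        rw [h6, Matrix.trace_smul, smul_eq_mul]
        exact O.mul_mem a.2 hx
    have h5 := h4 _ hv
    rw [lc_apply, Matrix.mul_sum, Matrix.trace_sum] at h5
    have h6 : (gm Q u 1 *ᵥ v) i =
        ∑ k, ((FreeGroup.lift Q (u i)).1 * v k • (FreeGroup.lift Q (u k)).1).trace := by
      rw [Matrix.mulVec, dotProduct]
      refine Finset.sum_congr rfl fun k _ => ?_
      rw [Matrix.mul_smul, Matrix.trace_smul, smul_eq_mul, mul_comm]
      congr 1
      change (FreeGroup.lift Q (u i * 1 * u k)).1.trace = _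
      rw [mul_one, map_mul]
      rfl
    rw [h6]
    exact h5
  have hSmul : ∀ γ, ∀ M ∈ S, (FreeGroup.lift Q γ).1 * M ∈ S := by
    intro γ M hM
    induction hM using Submodule.span_induction with
    | mem x hx =>
      obtain ⟨w, rfl⟩ := hx
      refine Submodule.subset_span ⟨γ * w, ?_⟩
      change (FreeGroup.lift Q (γ * w)).1 = _
      rw [map_mul]
      rfl
    | zero => rw [Matrix.mul_zero]; exact S.zero_mem
    | add x y _ _ hx hy =>
      rw [Matrix.mul_add]
      exact S.add_mem hx hy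
    | smul a x _ hx =>
      rw [Matrix.mul_smul]
      exact S.smul_mem a hx
  -- stability under the generators
  have hgen : ∀ γ, (∀ i j, ∃ o, IsIntegralAt P o ∧ gm X u γ i j - gm Q u γ i j =
      π * (gm Q u 1).det ^ 3 * o) →
      ∀ v ∈ L, ∃ v' ∈ L, (FreeGroup.lift X γ).1 * lc X u v = lc X u v' := by
    intro γ hγ v hv
    obtain ⟨LQ, hLQ, hLQ'⟩ := exists_lam Q u hQ γ
    obtain ⟨LX, hLX, hLX'⟩ := exists_lam X u hX γ
    have hcl := close_mat hP (fun i j => (mO _).2 (hgQ 1 i j)) (fun i j => (mO _).2 (hgQ γ i j))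
      hΔ hπ h1 hγ hLQ' hLX'
    refine ⟨LX *ᵥ v, ?_, hLX v⟩
    have h4 : LX *ᵥ v = LQ *ᵥ v + (LX - LQ) *ᵥ v := by
      rw [Matrix.sub_mulVec]
      abel
    rw [h4]
    refine hLadd _ ?_ _ (hLO _ fun i => ?_)
    · change lc Q u (LQ *ᵥ v) ∈ S
      rw [← hLQ]
      exact hSmul γ _ hv
    · rw [Matrix.mulVec, dotProduct]
      refine O.sum_mem fun j _ => ?_
      obtain ⟨o, ho, h⟩ := hcl i j
      rw [Matrix.sub_apply, h, ← hΔe]
      have h5 : Δ * o * v j = o * (Δ * v j) := by ring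
      rw [h5]
      exact O.mul_mem ((mO _).1 ho) (hLbd v hv j)
  have hall : ∀ γ, ∀ v ∈ L, ∃ v' ∈ L, (FreeGroup.lift X γ).1 * lc X u v = lc X u v' := by
    intro γ
    induction γ using FreeGroup.induction_on with
    | C1 =>
      intro v hv
      refine ⟨v, hv, ?_⟩
      rw [map_one]
      exact Matrix.one_mul _
    | of p => exact hgen _ (h2 p)
    | inv_of p _ => exact hgen _ (h3 p)
    | mul x y hx hy =>
      intro v hv
      obtain ⟨v1, hv1, h4⟩ := hy v hv
      obtain ⟨v2, hv2, h5⟩ := hx v1 hv1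
      refine ⟨v2, hv2, ?_⟩
      rw [← h5, ← h4, ← Matrix.mul_assoc, map_mul]
      rfl
  -- the eigenvalues
  have hΔO : Δ ∈ O := by
    rw [hΔe]
    exact det_mem_mat O (hgQ 1)
  have hΔ0 : Δ ≠ 0 := by rwa [hΔe]
  have heig : ∀ z ∈ (FreeGroup.lift X w).1.charpoly.roots, z ∈ O := by
    intro z hz
    rw [Polynomial.mem_roots (Matrix.charpoly_monic _).ne_zero, Polynomial.IsRoot.def,
      Matrix.eval_charpoly] at hz
    obtain ⟨y, hy0, hy⟩ := Matrix.exists_vecMul_eq_zero_iff.2 hz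
    have hy' : y ᵥ* (FreeGroup.lift X w).1 = z • y := by
      rw [Matrix.vecMul_sub, sub_eq_zero] at hy
      rw [← hy, Matrix.scalar_apply]
      ext s
      rw [Matrix.vecMul_diagonal, Pi.smul_apply, smul_eq_mul, mul_comm]
    have hpow : ∀ k : ℕ, y ᵥ* (FreeGroup.lift X (w ^ k)).1 = z ^ k • y := by
      intro k
      induction k with
      | zero =>
        rw [pow_zero, map_one, pow_zero, one_smul]
        exact Matrix.vecMul_one y
      | succ k ih =>
        have h4 : (FreeGroup.lift X (w ^ (k + 1))).1 =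
            (FreeGroup.lift X (w ^ k)).1 * (FreeGroup.lift X w).1 := by
          rw [pow_succ, map_mul]
          rfl
        rw [h4, ← Matrix.vecMul_vecMul, ih, Matrix.smul_vecMul, hy', smul_smul, ← pow_succ]
    obtain ⟨s, hs⟩ : ∃ s, y s ≠ 0 := by
      by_contra hcon
      push Not at hcon
      exact hy0 (funext hcon)
    obtain ⟨β, hβ⟩ : ∃ β : Fin m → ℂ, ∀ i, β i = (y ᵥ* (FreeGroup.lift X (u i)).1) s :=
      ⟨_, fun _ => rfl⟩
    have hlcβ : ∀ v : Fin m → ℂ, (y ᵥ* lc X u v) s = ∑ i, v i * β i := by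
      intro v
      rw [lc_apply, Matrix.vecMul_sum, Finset.sum_apply]
      refine Finset.sum_congr rfl fun i _ => ?_
      rw [Matrix.vecMul_smul, Pi.smul_apply, smul_eq_mul, hβ]
    have hβ0 : β ≠ 0 := by
      intro h
      obtain ⟨c, hc⟩ := hX 1
      have h4 : lc X u c = 1 := by
        rw [lc_apply, ← hc, map_one]
        rfl
      have h5 := hlcβ c
      rw [h4, Matrix.vecMul_one, h] at h5
      apply hs
      rw [h5]
      simp
    have hbd : ∀ k : ℕ, IsIntegralAt P (Δ * z ^ k) := by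
      intro k
      choose v' hv'L hv' using fun j => hall (w ^ k) (Pi.single j 1) (hLO _ fun i => by
        by_cases hij : i = j
        · rw [hij, Pi.single_eq_same]
          exact O.one_mem
        · rw [Pi.single_eq_of_ne hij]
          exact O.zero_mem)
      obtain ⟨C, hC⟩ : ∃ C : Matrix (Fin m) (Fin m) O,
          O.subtype.mapMatrix C = Matrix.of fun j i => Δ * v' j i :=
        ⟨Matrix.of fun j i => ⟨Δ * v' j i, hLbd _ (hv'L j) i⟩, by ext i j; rfl⟩
      refine root_mem hP (Matrix.charpoly_monic (O.subtype.mapMatrix C)) (fun i => ?_)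
        (z := Δ * z ^ k) ?_
      · rw [RingHom.mapMatrix_apply, Matrix.charpoly_map, Polynomial.coeff_map]
        exact (mO _).2 (SetLike.coe_mem _)
      · rw [Matrix.eval_charpoly]
        refine Matrix.exists_mulVec_eq_zero_iff.1 ⟨β, hβ0, ?_⟩
        rw [Matrix.sub_mulVec, sub_eq_zero]
        ext j
        rw [Matrix.scalar_apply, Matrix.mulVec_diagonal, hC, Matrix.mulVec, dotProduct]
        have h4 := congrArg (fun M => (y ᵥ* M) s) (hv' j)
        simp only [hlcβ, lc_single, ← Matrix.vecMul_vecMul, hpow] at h4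
        rw [Matrix.smul_vecMul, Pi.smul_apply, smul_eq_mul, ← hβ] at h4
        rw [mul_assoc, h4, Finset.mul_sum]
        refine Finset.sum_congr rfl fun i _ => ?_
        rw [Matrix.of_apply, mul_assoc]
    have hΔalg := alg_at ((mO Δ).2 hΔO)
    have hz1 : IsAlgebraic ℚ z := by
      have h4 := alg_at (hbd 1)
      rw [pow_one] at h4
      have h5 : z = Δ⁻¹ * (Δ * z) := by
        rw [← mul_assoc, inv_mul_cancel₀ hΔ0, one_mul]
      rw [h5]
      exact hΔalg.inv.mul h4
    exact (mO _).1 (mem_of_bdd hP hΔalg hΔ0 hz1 hbd)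
  rw [mO, Matrix.trace_eq_sum_roots_charpoly]
  exact O.multiset_sum_mem _ heig

end Vale.Agent.P002.R2.H955
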